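import Mathlib

/-!
# P043: translation action of the group algebra on functions
-/

namespace Vale.Agent.P043

open Finset

variable {G : Type*} [AddCommGroup G]

section action
variable (k : Type*) [CommRing k]

/-- translation operator on functions: `(shift g c) x = c (x - g)`. -/
def shift (g : G) : Module.End k (G → k) := LinearMap.funLeft k k (fun x => x - g)

@[simp] lemma shift_apply (g : G) (c : G → k) (x : G) : shift k g c x = c (x - g) := rfl

/-- translations as a monoid homomorphism. -/
def shiftHom : Multiplicative G →* Module.End k (G → k) where
  toFun g := shift k g.toAdd
  map_one' := by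
    apply LinearMap.ext; intro c; funext x
    simp
  map_mul' g h := by
    apply LinearMap.ext; intro c; funext x
    simp [sub_sub, add_comm]

/-- the action of the group algebra on functions. -/
noncomputable def act : AddMonoidAlgebra k G →ₐ[k] Module.End k (G → k) :=
  AddMonoidAlgebra.lift k (Module.End k (G → k)) G (shiftHom k)

lemma act_single (g : G) (r : k) (c : G → k) (x : G) :
    act k (AddMonoidAlgebra.single g r) c x = r * c (x - g) := by
  simp [act, AddMonoidAlgebra.lift_single, shiftHom]

lemma act_single_one (g : G) (c : G → k) :
    act k (AddMonoidAlgebra.single g 1) c = fun x => c (x - g) := by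
  funext x; simp [act_single]

lemma act_mul (p q : AddMonoidAlgebra k G) (c : G → k) :
    act k (p * q) c = act k p (act k q c) := by
  simp [map_mul]

lemma act_const (g : G) (r : k) :
    act k (AddMonoidAlgebra.single g 1) (fun _ => r) = fun _ => r := by
  rw [act_single_one]

end action

end Vale.Agent.P043
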