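import Mathlib

/-!
# P043: vanishing sums of roots of unity
-/

namespace Vale.Agent.P043

open Finset Polynomial

/-- vanishing sums of powers transfer between primitive roots of the same order. -/
lemma transfer_vanishing {K K' : Type*} [Field K] [CharZero K] [Field K'] [CharZero K'] {n : ℕ}
    (hn : 0 < n) {μ : K} {μ' : K'} (hμ : IsPrimitiveRoot μ n) (hμ' : IsPrimitiveRoot μ' n)
    {ι : Type*} (S : Finset ι) (e : ι → ℕ) (h : ∑ j ∈ S, μ ^ e j = 0) :
    ∑ j ∈ S, μ' ^ e j = 0 := by
  set g : ℤ[X] := ∑ j ∈ S, X ^ e j with hg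
  have h1 : aeval μ g = 0 := by simp [hg, map_sum, h]
  have h2 : minpoly ℤ μ ∣ g := minpoly.isIntegrallyClosed_dvd (hμ.isIntegral hn) h1
  rw [← cyclotomic_eq_minpoly hμ hn, cyclotomic_eq_minpoly hμ' hn] at h2
  have h3 : aeval μ' g = 0 := by
    obtain ⟨q, hq⟩ := h2
    rw [hq, map_mul, minpoly.aeval, zero_mul]
  simpa [hg, map_sum] using h3

open Classical in
lemma class_sum_zero {K : Type*} [Field K] {ι : Type*} [Fintype ι] (w σ : ι → K)
    (h : ∀ t : ℕ, ∑ i, w i * σ i ^ t = 0) (i0 : ι) :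
    ∑ i ∈ univ.filter (fun i => σ i = σ i0), w i = 0 := by
  have hpoly : ∀ Q : K[X], ∑ i, w i * Q.eval (σ i) = 0 := by
    intro Q
    induction Q using Polynomial.induction_on' with
    | add p q hp hq => simp [mul_add, sum_add_distrib, hp, hq]
    | monomial t a =>
      simp only [eval_monomial]
      calc ∑ i, w i * (a * σ i ^ t) = a * ∑ i, w i * σ i ^ t := by
            rw [mul_sum]; apply sum_congr rfl; intros; ring
        _ = 0 := by rw [h t, mul_zero]
  set J := univ.filter (fun j => σ j ≠ σ i0) with hJ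
  set Q : K[X] := ∏ j ∈ J, (X - C (σ j)) with hQ
  set D : K := ∏ j ∈ J, (σ i0 - σ j) with hD
  have hD0 : D ≠ 0 := by
    rw [hD, prod_ne_zero_iff]
    intro j hj
    exact sub_ne_zero.2 (Ne.symm (mem_filter.1 hj).2)
  have hev : ∀ i, Q.eval (σ i) = if σ i = σ i0 then D else 0 := by
    intro i
    simp only [hQ, eval_prod, eval_sub, eval_X, eval_C]
    split_ifs with hi
    · rw [hi]
    · exact prod_eq_zero (i := i) (mem_filter.2 ⟨mem_univ _, hi⟩) (sub_self _)
  have h1 := hpoly Q
  simp only [hev, mul_ite, mul_zero] at h1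
  rw [← sum_filter, ← sum_mul] at h1
  exact (mul_eq_zero.1 h1).resolve_right hD0

/-- From a vanishing family of power sums in an algebraically closed field of characteristic
zero to a system of complex roots of unity with vanishing class sums. -/
theorem exists_balanced {K : Type*} [Field K] [CharZero K] [IsAlgClosed K] {ι : Type*} [Fintype ι]
    [DecidableEq ι] (n : ℕ) (hn : 0 < n) (w : ι → K) (hw : ∀ i, w i ≠ 0)
    (h : ∀ t : ℕ, ∑ i, w i * (w i ^ n) ^ t = 0) :
    ∃ (κ : ι → ι) (z : ι → ℂ), (∀ i, z i ^ n = 1) ∧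
      (∀ i, ∑ j ∈ univ.filter (fun j => κ j = κ i), z j = 0) ∧
      ∀ i j, κ i = κ j → w i ^ n = w j ^ n := by
  classical
  have : NeZero n := ⟨hn.ne'⟩
  set σ : ι → K := fun i => w i ^ n with hσ
  have hex : ∀ i, ∃ j, σ j = σ i := fun i => ⟨i, rfl⟩
  set κ : ι → ι := fun i => Classical.choose (hex i) with hκ
  have hκ1 : ∀ i, σ (κ i) = σ i := fun i => Classical.choose_spec (hex i)
  have hκ2 : ∀ i j, σ i = σ j → κ i = κ j := by
    intro i j hij
    simp only [hκ, hij]
  have hκ3 : ∀ i j, κ i = κ j → σ i = σ j := by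
    intro i j hij
    rw [← hκ1 i, ← hκ1 j, hij]
  obtain ⟨μ, hμ⟩ := HasEnoughRootsOfUnity.exists_primitiveRoot K n
  have hζ : ∀ j, (w j / w (κ j)) ^ n = 1 := by
    intro j
    rw [div_pow]
    have : w (κ j) ^ n = w j ^ n := hκ1 j
    rw [this, div_self (pow_ne_zero _ (hw j))]
  choose e _ he2 using fun j => hμ.eq_pow_of_pow_eq_one (hζ j)
  have hμ' := Complex.isPrimitiveRoot_exp n hn.ne'
  set μ' : ℂ := Complex.exp (2 * Real.pi * Complex.I / n) with hμ'def
  refine ⟨κ, fun j => μ' ^ e j, fun i => ?_, fun i => ?_, hκ3⟩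
  · rw [← pow_mul, mul_comm, pow_mul, hμ'.pow_eq_one, one_pow]
  · apply transfer_vanishing hn hμ hμ'
    have h1 : ∑ j ∈ univ.filter (fun j => κ j = κ i), μ ^ e j
        = (∑ j ∈ univ.filter (fun j => κ j = κ i), w j) / w (κ i) := by
      rw [sum_div]
      apply sum_congr rfl
      intro j hj
      rw [he2, (mem_filter.1 hj).2]
    have h2 : univ.filter (fun j => κ j = κ i) = univ.filter (fun j => σ j = σ i) := by
      apply filter_congr
      intro j _
      exact ⟨hκ3 j i, hκ2 j i⟩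
    rw [h1, h2, class_sum_zero w σ h i, zero_div]

/-- a vanishing sum of roots of unity of order a power of `p` has length divisible by `p`. -/
theorem dvd_card_of_vanishing {p k : ℕ} (hp : p.Prime) {ι : Type*} (S : Finset ι) (z : ι → ℂ)
    (hz : ∀ j ∈ S, z j ^ (p ^ k) = 1) (h : ∑ j ∈ S, z j = 0) : p ∣ S.card := by
  have : Fact p.Prime := ⟨hp⟩
  rcases k with _ | k
  · have h1 : ∑ j ∈ S, z j = ∑ j ∈ S, (1 : ℂ) := by
      apply sum_congr rfl
      intro j hj
      simpa using hz j hj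
    rw [h1] at h
    simp only [sum_const, nsmul_eq_mul, mul_one] at h
    have : S.card = 0 := by exact_mod_cast h
    rw [this]; exact dvd_zero p
  · have hn : 0 < p ^ (k + 1) := pow_pos hp.pos _
    have : NeZero (p ^ (k + 1)) := ⟨hn.ne'⟩
    have hμ := Complex.isPrimitiveRoot_exp (p ^ (k + 1)) hn.ne'
    set μ : ℂ := Complex.exp (2 * Real.pi * Complex.I / (p ^ (k + 1) : ℕ)) with hμdef
    have hex : ∀ j, ∃ e : ℕ, j ∈ S → μ ^ e = z j := by
      intro j
      by_cases hj : j ∈ S
      · obtain ⟨e, _, he⟩ := hμ.eq_pow_of_pow_eq_one (hz j hj)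
        exact ⟨e, fun _ => he⟩
      · exact ⟨0, fun h' => absurd h' hj⟩
    choose e he using hex
    set g : ℤ[X] := ∑ j ∈ S, X ^ e j with hg
    have h1 : aeval μ g = 0 := by
      rw [hg, map_sum, ← h]
      apply sum_congr rfl
      intro j hj
      simp [he j hj]
    have h2 : minpoly ℤ μ ∣ g := minpoly.isIntegrallyClosed_dvd (hμ.isIntegral hn) h1
    rw [← cyclotomic_eq_minpoly hμ hn] at h2
    have h3 := Polynomial.eval_dvd (x := (1 : ℤ)) h2
    rw [eval_one_cyclotomic_prime_pow] at h3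
    have h4 : eval 1 g = (S.card : ℤ) := by
      simp [hg, eval_finsetSum]
    rw [h4] at h3
    exact_mod_cast h3

end Vale.Agent.P043
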