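import Vale.Agent.Lib.P043.Dilation
import Vale.Agent.Lib.P043.Roots

/-!
# P043: annihilators of a tiling and forced periods
-/

namespace Vale.Agent.P043

open Finset AddMonoidAlgebra

variable {G : Type*} [AddCommGroup G]

/-- the annihilator ideal of a rational function on the group. -/
def ann (c : G → ℚ) : Ideal (AddMonoidAlgebra ℚ G) where
  carrier := {p | act ℚ p c = 0}
  add_mem' := by
    intro a b ha hb
    change act ℚ (a + b) c = 0
    change act ℚ a c = 0 at ha
    change act ℚ b c = 0 at hb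
    simp [map_add, ha, hb]
  zero_mem' := by
    change act ℚ 0 c = 0
    simp
  smul_mem' := by
    intro a p hp
    change act ℚ (a * p) c = 0
    change act ℚ p c = 0 at hp
    rw [act_mul, hp]; simp

lemma mem_ann {c : G → ℚ} {p : AddMonoidAlgebra ℚ G} : p ∈ ann c ↔ act ℚ p c = 0 := Iff.rfl

/-- the group of exponents `g` with `X^g - 1` in the ideal. -/
def unitGroup (P : Ideal (AddMonoidAlgebra ℚ G)) : AddSubgroup G where
  carrier := {g | single g (1 : ℚ) - 1 ∈ P}
  zero_mem' := by
    change single (0 : G) (1 : ℚ) - 1 ∈ P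
    rw [← one_def, sub_self]; exact P.zero_mem
  add_mem' := by
    intro a b ha hb
    change single (a + b) (1 : ℚ) - 1 ∈ P
    change single a (1 : ℚ) - 1 ∈ P at ha
    change single b (1 : ℚ) - 1 ∈ P at hb
    have : single (a + b) (1 : ℚ) - 1
        = single a (1 : ℚ) * (single b (1 : ℚ) - 1) + (single a (1 : ℚ) - 1) := by
      rw [mul_sub, single_mul_single]; simp
    rw [this]
    exact P.add_mem (P.mul_mem_left _ hb) ha
  neg_mem' := by
    intro a ha
    change single (-a) (1 : ℚ) - 1 ∈ P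
    change single a (1 : ℚ) - 1 ∈ P at ha
    have : single (-a) (1 : ℚ) - 1 = -(single (-a) (1 : ℚ) * (single a (1 : ℚ) - 1)) := by
      rw [mul_sub, single_mul_single]; simp [one_def]
    rw [this]
    exact P.neg_mem (P.mul_mem_left _ ha)

lemma mem_unitGroup {P : Ideal (AddMonoidAlgebra ℚ G)} {g : G} :
    g ∈ unitGroup P ↔ single g (1 : ℚ) - 1 ∈ P := Iff.rfl

section family
variable {ι : Type*} [Fintype ι]

lemma mul_sum_mem_ann {v : ι → G} {c : G → ℤ} (h : TilesFam v c) (g : G) (t : ℕ) :
    (single g (1 : ℚ) - 1) * ∑ i, single ((1 + Fintype.card ι * t) • v i) (1 : ℚ)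
      ∈ ann (fun x => (c x : ℚ)) := by
  rw [mem_ann, act_mul, act_sum_single]
  have h1 : (fun x => ∑ i, ((c (x - (1 + Fintype.card ι * t) • v i) : ℤ) : ℚ)) = fun _ => (1 : ℚ) := by
    funext x
    have := (dilation_card h t).2 x
    exact_mod_cast this
  rw [h1, map_sub, LinearMap.sub_apply, act_const]
  simp

/-- a prime over the annihilator either contains all `X^g - 1`, or comes with a colouring whose
classes carry vanishing sums of roots of unity and whose class differences are killed. -/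
lemma prime_dichotomy [DecidableEq ι] {v : ι → G} {c : G → ℤ} (h : TilesFam v c)
    (P : Ideal (AddMonoidAlgebra ℚ G)) [hP : P.IsPrime] (hle : ann (fun x => (c x : ℚ)) ≤ P) :
    (∀ g : G, single g (1 : ℚ) - 1 ∈ P) ∨
    ∃ (κ : ι → ι) (z : ι → ℂ), (∀ i, z i ^ Fintype.card ι = 1) ∧
      (∀ i, ∑ j ∈ univ.filter (fun j => κ j = κ i), z j = 0) ∧
      AddSubgroup.closure {g | ∃ i j, κ i = κ j ∧ g = v i - v j}
        ≤ (unitGroup P).comap (nsmulAddMonoidHom (Fintype.card ι)) := by
  set n := Fintype.card ι with hn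
  obtain ⟨i0⟩ := h.nonempty
  have hnpos : 0 < n := Fintype.card_pos_iff.2 ⟨i0⟩
  by_cases hall : ∀ g : G, single g (1 : ℚ) - 1 ∈ P
  · exact Or.inl hall
  · right
    obtain ⟨g0, hg0⟩ := not_forall.1 hall
    have hf : ∀ t : ℕ, ∑ i, single ((1 + n * t) • v i) (1 : ℚ) ∈ P := by
      intro t
      exact (hP.mem_or_mem (hle (mul_sum_mem_ann h g0 t))).resolve_left hg0
    let R := AddMonoidAlgebra ℚ G ⧸ P
    let K := AlgebraicClosure (FractionRing R)
    let ψ : AddMonoidAlgebra ℚ G →+* K :=
      ((algebraMap (FractionRing R) K).comp (algebraMap R (FractionRing R))).comp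
        (Ideal.Quotient.mk P)
    have hψ : ∀ p, ψ p = 0 ↔ p ∈ P := by
      intro p
      have h1 : ψ p = algebraMap (FractionRing R) K (algebraMap R (FractionRing R)
        (Ideal.Quotient.mk P p)) := rfl
      rw [h1, map_eq_zero_iff _ (algebraMap (FractionRing R) K).injective,
        map_eq_zero_iff _ (IsFractionRing.injective R (FractionRing R)),
        Ideal.Quotient.eq_zero_iff_mem]
    have hchar : CharZero K :=
      charZero_of_injective_ringHom (f := ψ.comp (algebraMap ℚ (AddMonoidAlgebra ℚ G)))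
        (RingHom.injective _)
    set w : ι → K := fun i => ψ (single (v i) (1 : ℚ)) with hw
    have hw0 : ∀ i, w i ≠ 0 := by
      intro i h0
      have h1 : ψ (single (-(v i)) (1 : ℚ)) * w i = 1 := by
        rw [hw, ← map_mul, single_mul_single]
        simp [← one_def]
      rw [h0, mul_zero] at h1
      exact zero_ne_one h1
    have hpow : ∀ (i : ι) (r : ℕ), ψ (single (r • v i) (1 : ℚ)) = w i ^ r := by
      intro i r
      rw [hw, ← map_pow, single_pow, one_pow]
    have hsum : ∀ t : ℕ, ∑ i, w i * (w i ^ n) ^ t = 0 := by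
      intro t
      have h1 := (hψ _).2 (hf t)
      rw [map_sum] at h1
      rw [← h1]
      apply sum_congr rfl
      intro i _
      rw [hpow, pow_add, pow_one, pow_mul]
    obtain ⟨κ, z, hz1, hz2, hz3⟩ := exists_balanced n hnpos w hw0 hsum
    refine ⟨κ, z, hz1, hz2, ?_⟩
    rw [AddSubgroup.closure_le]
    rintro _ ⟨i, j, hij, rfl⟩
    change single (n • (v i - v j)) (1 : ℚ) - 1 ∈ P
    have h3 : single (n • v i) (1 : ℚ) - single (n • v j) (1 : ℚ) ∈ P := by
      rw [← hψ, map_sub, hpow, hpow, hz3 i j hij, sub_self]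
    have : single (n • (v i - v j)) (1 : ℚ) - 1
        = single (-(n • v j)) (1 : ℚ) * (single (n • v i) (1 : ℚ) - single (n • v j) (1 : ℚ)) := by
      rw [mul_sub, single_mul_single, single_mul_single, smul_sub]
      simp [one_def, sub_eq_add_neg, add_comm]
    rw [this]
    exact Ideal.mul_mem_left P _ h3

lemma sub_one_mem_prime [DecidableEq ι] {v : ι → G} {c : G → ℤ} (h : TilesFam v c)
    {y : G} (hy : ∀ (κ : ι → ι) (z : ι → ℂ), (∀ i, z i ^ Fintype.card ι = 1) →
      (∀ i, ∑ j ∈ univ.filter (fun j => κ j = κ i), z j = 0) →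
      y ∈ AddSubgroup.closure {g | ∃ i j, κ i = κ j ∧ g = v i - v j})
    (P : Ideal (AddMonoidAlgebra ℚ G)) [hP : P.IsPrime] (hle : ann (fun x => (c x : ℚ)) ≤ P) :
    single (Fintype.card ι • y) (1 : ℚ) - 1 ∈ P := by
  rcases prime_dichotomy h P hle with hall | ⟨κ, z, hz1, hz2, hz3⟩
  · exact hall _
  · exact hz3 (hy κ z hz1 hz2)

lemma mul_sub_one_mem_prime [DecidableEq ι] {v : ι → G} {c : G → ℤ} (h : TilesFam v c)
    {y y' : G} (hy : ∀ (κ : ι → ι) (z : ι → ℂ), (∀ i, z i ^ Fintype.card ι = 1) →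
      (∀ i, ∑ j ∈ univ.filter (fun j => κ j = κ i), z j = 0) →
      y ∈ AddSubgroup.closure {g | ∃ i j, κ i = κ j ∧ g = v i - v j} ∨
      y' ∈ AddSubgroup.closure {g | ∃ i j, κ i = κ j ∧ g = v i - v j})
    (P : Ideal (AddMonoidAlgebra ℚ G)) [hP : P.IsPrime] (hle : ann (fun x => (c x : ℚ)) ≤ P) :
    (single (Fintype.card ι • y) (1 : ℚ) - 1) * (single (Fintype.card ι • y') (1 : ℚ) - 1) ∈ P := by
  rcases prime_dichotomy h P hle with hall | ⟨κ, z, hz1, hz2, hz3⟩
  · exact Ideal.mul_mem_left P _ (hall _)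
  · rcases hy κ z hz1 hz2 with h1 | h1
    · exact Ideal.mul_mem_right _ P (hz3 h1)
    · exact Ideal.mul_mem_left P _ (hz3 h1)

end family

/-- the difference operator in direction `w`. -/
def dl (w : G) (g : G → ℤ) : G → ℤ := fun x => g (x - w) - g x

lemma act_sub_one_cast (w : G) (g : G → ℤ) :
    act ℚ (single w (1 : ℚ) - 1) (fun x => (g x : ℚ)) = fun x => ((dl w g x : ℤ) : ℚ) := by
  funext x
  simp [map_sub, LinearMap.sub_apply, act_single, dl]

lemma act_sub_one_pow_cast (w : G) (g : G → ℤ) (K : ℕ) :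
    act ℚ ((single w (1 : ℚ) - 1) ^ K) (fun x => (g x : ℚ))
      = fun x => (((dl w)^[K] g x : ℤ) : ℚ) := by
  induction K generalizing g with
  | zero => simp
  | succ K ih => rw [pow_succ, act_mul, act_sub_one_cast, ih, Function.iterate_succ_apply]

lemma dl_bounded {w : G} {g : G → ℤ} (hg : ∃ B, ∀ x, |g x| ≤ B) : ∃ B, ∀ x, |dl w g x| ≤ B := by
  obtain ⟨B, hB⟩ := hg
  refine ⟨B + B, fun x => ?_⟩
  unfold dl
  calc |g (x - w) - g x| ≤ |g (x - w)| + |g x| := abs_sub _ _
    _ ≤ B + B := add_le_add (hB _) (hB _)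

lemma dl_eq_zero_of_bounded {w : G} {g : G → ℤ} (hg : ∃ B, ∀ x, |g x| ≤ B)
    (h : dl w (dl w g) = 0) : dl w g = 0 := by
  obtain ⟨B, hB⟩ := hg
  have h1 : ∀ x, dl w g (x - w) = dl w g x := by
    intro x
    have := congrFun h x
    simp only [dl, Pi.zero_apply] at this
    simp only [dl]
    omega
  have h2 : ∀ (m : ℕ) x, dl w g (x - m • w) = dl w g x := by
    intro m
    induction m with
    | zero => intro x; simp
    | succ m ih =>
      intro x
      rw [succ_nsmul, ← sub_sub, h1, ih]
  have h3 : ∀ (m : ℕ) x, g (x - m • w) - g x = m * dl w g x := by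
    intro m
    induction m with
    | zero => intro x; simp
    | succ m ih =>
      intro x
      have e1 := ih x
      have e2 := h2 m x
      have e3 : dl w g (x - m • w) = g (x - (m + 1) • w) - g (x - m • w) := by
        simp only [dl]
        rw [succ_nsmul, ← sub_sub]
      push_cast
      rw [e3] at e2
      linarith
  funext x
  by_contra hx
  have hx' : dl w g x ≠ 0 := hx
  have hB0 : 0 ≤ B := le_trans (abs_nonneg _) (hB x)
  have h4 := h3 (2 * B + 1).toNat x
  have h5 : (((2 * B + 1).toNat : ℕ) : ℤ) = 2 * B + 1 := Int.toNat_of_nonneg (by omega)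
  rw [h5] at h4
  have h6 : |g (x - (2 * B + 1).toNat • w) - g x| ≤ B + B :=
    calc |g (x - (2 * B + 1).toNat • w) - g x| ≤ |g (x - (2 * B + 1).toNat • w)| + |g x| := abs_sub _ _
      _ ≤ B + B := add_le_add (hB _) (hB _)
  rw [h4, abs_mul] at h6
  have h7 : 1 ≤ |dl w g x| := Int.one_le_abs hx'
  have h8 : |2 * B + 1| = 2 * B + 1 := abs_of_nonneg (by omega)
  rw [h8] at h6
  nlinarith

lemma dl_eq_zero_of_iterate {w : G} (K : ℕ) : ∀ {g : G → ℤ}, (∃ B, ∀ x, |g x| ≤ B) →
    (dl w)^[K] g = 0 → dl w g = 0 := by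
  induction K with
  | zero =>
    intro g _ h
    have : g = 0 := h
    subst this
    funext x; simp [dl]
  | succ K ih =>
    intro g hg h
    rw [Function.iterate_succ_apply] at h
    have h1 := ih (dl_bounded (w := w) hg) h
    exact dl_eq_zero_of_bounded hg h1

/-- **Forced periods.** Let `c` solve the tiling equation of a family `v` of size `n`. Suppose
that `y` lies in the group generated by the differences `v i - v j`, `κ i = κ j`, for every
colouring `κ` of the index set such that the colour classes carry vanishing sums of complex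
`n`-th roots of unity. Then `n • y` is a period of `c`. -/
theorem forced_period {ι : Type*} [Fintype ι] [DecidableEq ι] {v : ι → G} {c : G → ℤ}
    (h : TilesFam v c)
    {y : G} (hy : ∀ (κ : ι → ι) (z : ι → ℂ), (∀ i, z i ^ Fintype.card ι = 1) →
      (∀ i, ∑ j ∈ univ.filter (fun j => κ j = κ i), z j = 0) →
      y ∈ AddSubgroup.closure {g | ∃ i j, κ i = κ j ∧ g = v i - v j}) (x : G) :
    c (x - Fintype.card ι • y) = c x := by
  obtain ⟨i0⟩ := h.nonempty
  have h1 : single (Fintype.card ι • y) (1 : ℚ) - 1 ∈ (ann (fun x => (c x : ℚ))).radical := by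
    rw [Ideal.radical_eq_sInf, Submodule.mem_sInf]
    rintro P ⟨hle, hP⟩
    exact sub_one_mem_prime h hy P hle
  obtain ⟨K, hK⟩ := h1
  rw [mem_ann, act_sub_one_pow_cast] at hK
  have hK' : (dl (Fintype.card ι • y))^[K] c = 0 := by
    funext x
    have := congrFun hK x
    simp only [Pi.zero_apply] at this
    exact_mod_cast this
  have hb : ∃ B, ∀ x, |c x| ≤ B := ⟨1, fun x => abs_le.2 ⟨by have := h.1 x; omega, h.le_one i0 x⟩⟩
  have h2 := congrFun (dl_eq_zero_of_iterate K hb hK') x
  simp only [dl, Pi.zero_apply] at h2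
  omega

lemma dl_comm (a b : G) (g : G → ℤ) : dl a (dl b g) = dl b (dl a g) := by
  funext x
  simp only [dl]
  have : x - a - b = x - b - a := by abel
  rw [this]; ring

lemma dl_iterate_bounded {w : G} (K : ℕ) : ∀ {g : G → ℤ}, (∃ B, ∀ x, |g x| ≤ B) →
    ∃ B, ∀ x, |(dl w)^[K] g x| ≤ B := by
  induction K with
  | zero => intro g hg; simpa using hg
  | succ K ih =>
    intro g hg
    rw [Function.iterate_succ_apply]
    exact ih (dl_bounded hg)

/-- **Forced mixed differences.** If for every admissible colouring one of `y`, `y'` lies in the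
group generated by the class differences, then the mixed second difference of `c` in the
directions `n • y`, `n • y'` vanishes. -/
theorem forced_pair {ι : Type*} [Fintype ι] [DecidableEq ι] {v : ι → G} {c : G → ℤ}
    (h : TilesFam v c)
    {y y' : G} (hy : ∀ (κ : ι → ι) (z : ι → ℂ), (∀ i, z i ^ Fintype.card ι = 1) →
      (∀ i, ∑ j ∈ univ.filter (fun j => κ j = κ i), z j = 0) →
      y ∈ AddSubgroup.closure {g | ∃ i j, κ i = κ j ∧ g = v i - v j} ∨
      y' ∈ AddSubgroup.closure {g | ∃ i j, κ i = κ j ∧ g = v i - v j}) :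
    dl (Fintype.card ι • y) (dl (Fintype.card ι • y') c) = 0 := by
  obtain ⟨i0⟩ := h.nonempty
  set a := Fintype.card ι • y with ha
  set b := Fintype.card ι • y' with hb
  have h1 : (single a (1 : ℚ) - 1) * (single b (1 : ℚ) - 1)
      ∈ (ann (fun x => (c x : ℚ))).radical := by
    rw [Ideal.radical_eq_sInf, Submodule.mem_sInf]
    rintro P ⟨hle, hP⟩
    exact mul_sub_one_mem_prime h hy P hle
  obtain ⟨K, hK⟩ := h1
  rw [mem_ann, mul_pow, act_mul, act_sub_one_pow_cast, act_sub_one_pow_cast] at hK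
  have hK' : (dl a)^[K] ((dl b)^[K] c) = 0 := by
    funext x
    have := congrFun hK x
    simp only [Pi.zero_apply] at this
    exact_mod_cast this
  have hbd : ∃ B, ∀ x, |c x| ≤ B :=
    ⟨1, fun x => abs_le.2 ⟨by have := h.1 x; omega, h.le_one i0 x⟩⟩
  have h2 : dl a ((dl b)^[K] c) = 0 := dl_eq_zero_of_iterate K (dl_iterate_bounded K hbd) hK'
  have hcomm : Function.Commute (dl a) (dl b) := fun g => dl_comm a b g
  have h3 : (dl b)^[K] (dl a c) = 0 := by
    rw [← (hcomm.iterate_right K) c]
    exact h2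
  have h4 : dl b (dl a c) = 0 := dl_eq_zero_of_iterate K (dl_bounded hbd) h3
  rw [dl_comm]
  exact h4

end Vale.Agent.P043
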