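import Mathlib

/-!
# P043: translational tilings, basic definitions
-/

namespace Vale.Agent.P043

/-- `A ⊕ F = G`: every `g` has a unique expression `g = a + f` with `a ∈ A`, `f ∈ F`. -/
def IsTiling {G : Type*} [AddCommGroup G] (A : Set G) (F : Finset G) : Prop :=
  ∀ g : G, ∃! p : G × G, p.1 ∈ A ∧ p.2 ∈ F ∧ p.1 + p.2 = g

/-- `A` is periodic: `A + h = A` for every `h` in some subgroup of finite index. -/
def IsPeriodic {G : Type*} [AddCommGroup G] (A : Set G) : Prop :=
  ∃ H : AddSubgroup G, H.FiniteIndex ∧ ∀ h ∈ H, ∀ x, x + h ∈ A ↔ x ∈ A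

/-- An additive functional `l` is *balanced* on `F` if one can attach to every point of `F` a
complex root of unity of order dividing `|F|` in such a way that the sum of these roots of
unity over each level set of `l` in `F` vanishes. -/
def Balanced {G : Type*} [AddCommGroup G] (F : Finset G) (l : G →+ ℤ) : Prop :=
  ∃ z : G → ℂ, (∀ f ∈ F, z f ^ F.card = 1) ∧
    ∀ s : ℤ, ∑ f ∈ F.filter (fun f => l f = s), z f = 0

end Vale.Agent.P043
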