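import Vale.Agent.Lib.P043.Action

/-!
# P043: the dilation lemma for tilings by a finite family
-/

namespace Vale.Agent.P043

open Finset

variable {G : Type*} [AddCommGroup G] {ι : Type*} [Fintype ι]

/-- `c` is a nonnegative integer solution of the tiling equation of the family `v`. -/
def TilesFam (v : ι → G) (c : G → ℤ) : Prop :=
  (∀ x, 0 ≤ c x) ∧ ∀ x, ∑ i, c (x - v i) = 1

lemma TilesFam.le_one {v : ι → G} {c : G → ℤ} (h : TilesFam v c) (i : ι) (x : G) : c x ≤ 1 := by
  have h1 := h.2 (x + v i)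
  have h2 : c (x + v i - v i) ≤ ∑ j, c (x + v i - v j) :=
    Finset.single_le_sum (f := fun j => c (x + v i - v j)) (fun j _ => h.1 _) (Finset.mem_univ i)
  rw [h1] at h2
  simpa using h2

lemma TilesFam.nonempty {v : ι → G} {c : G → ℤ} (h : TilesFam v c) : Nonempty ι := by
  by_contra hne
  rw [not_nonempty_iff] at hne
  have := h.2 0
  simp at this

lemma charP_groupAlg (q : ℕ) [Fact q.Prime] : CharP (AddMonoidAlgebra (ZMod q) G) q := by
  apply charP_of_injective_algebraMap (R := ZMod q)
  exact (algebraMap (ZMod q) (AddMonoidAlgebra (ZMod q) G)).injective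

lemma act_sum_single (k : Type*) [CommRing k] (v : ι → G) (c : G → k) :
    act k (∑ i, AddMonoidAlgebra.single (v i) (1 : k)) c = fun x => ∑ i, c (x - v i) := by
  funext x
  simp [map_sum, LinearMap.sum_apply, Finset.sum_apply, act_single]

lemma act_pow_const (k : Type*) [CommRing k] (v : ι → G) (m : ℕ) :
    act k ((∑ i, AddMonoidAlgebra.single (v i) (1 : k)) ^ m) (fun _ => (1 : k))
      = fun _ => (Fintype.card ι : k) ^ m := by
  induction m with
  | zero => simp
  | succ m ih =>
    rw [pow_succ', act_mul, ih, act_sum_single]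
    funext x
    simp [pow_succ']

theorem dilation_prime {v : ι → G} {c : G → ℤ} (h : TilesFam v c) {q : ℕ} (hq : q.Prime)
    (hn : ¬ q ∣ Fintype.card ι) : TilesFam (fun i => q • v i) c := by
  have : Fact q.Prime := ⟨hq⟩
  have := charP_groupAlg (G := G) q
  obtain ⟨i0⟩ := h.nonempty
  set cb : G → ZMod q := fun x => (c x : ZMod q) with hcb
  set f : AddMonoidAlgebra (ZMod q) G := ∑ i, AddMonoidAlgebra.single (v i) (1 : ZMod q) with hf
  have h1 : act (ZMod q) f cb = fun _ => 1 := by
    rw [hf, act_sum_single]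
    funext y
    have := congrArg (Int.cast : ℤ → ZMod q) (h.2 y)
    simpa [hcb] using this
  have h2 : f ^ q = ∑ i, AddMonoidAlgebra.single (q • v i) (1 : ZMod q) := by
    rw [hf, sum_pow_char q]
    simp [AddMonoidAlgebra.single_pow]
  have h3 : act (ZMod q) (f ^ q) cb = fun _ => 1 := by
    have hq1 : (q - 1) + 1 = q := by have := hq.pos; omega
    have : f ^ q = f ^ (q - 1) * f := by
      rw [← pow_succ, hq1]
    rw [this, act_mul, h1, hf, act_pow_const]
    funext y
    apply ZMod.pow_card_sub_one_eq_one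
    intro h0
    rw [ZMod.natCast_eq_zero_iff] at h0
    exact hn h0
  rw [h2, act_sum_single] at h3
  have h9 : (1 : ℤ) < q := by exact_mod_cast hq.one_lt
  have hS0 : ∀ x, 0 ≤ ∑ i, c (x - q • v i) := fun x => Finset.sum_nonneg (fun i _ => h.1 _)
  have hS1 : ∀ x, 1 ≤ ∑ i, c (x - q • v i) := by
    intro x
    have h4 := congrFun h3 x
    simp only [hcb] at h4
    have h5 : ((∑ i, c (x - q • v i) : ℤ) : ZMod q) = ((1 : ℤ) : ZMod q) := by
      push_cast
      exact h4
    rw [ZMod.intCast_eq_intCast_iff] at h5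
    by_contra hlt
    have h0 : ∑ i, c (x - q • v i) = 0 := le_antisymm (by omega) (hS0 x)
    rw [h0] at h5
    unfold Int.ModEq at h5
    rw [Int.emod_eq_of_lt (by norm_num) h9] at h5
    simp at h5
  have hS2 : ∀ x, ∑ j, ∑ i, c (x - v j - q • v i) = ∑ _j : ι, (1 : ℤ) := by
    intro x
    rw [Finset.sum_comm]
    apply Finset.sum_congr rfl
    intro i _
    rw [← h.2 (x - q • v i)]
    apply Finset.sum_congr rfl
    intro j _
    congr 1
    abel
  refine ⟨h.1, fun x => ?_⟩
  have h6 := (Finset.sum_eq_sum_iff_of_le (s := Finset.univ) (f := fun _ : ι => (1 : ℤ))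
    (g := fun j => ∑ i, c (x + v i0 - v j - q • v i)) (fun j _ => hS1 _)).1 (hS2 (x + v i0)).symm
    i0 (Finset.mem_univ _)
  simp only [add_sub_cancel_right] at h6
  exact h6.symm

theorem dilation (n : ℕ) (hn : Fintype.card ι = n) (r : ℕ) :
    r ≠ 0 → (∀ p : ℕ, p.Prime → p ∣ r → ¬ p ∣ n) →
      ∀ (v : ι → G) (c : G → ℤ), TilesFam v c → TilesFam (fun i => r • v i) c := by
  induction r using Nat.recOnMul with
  | zero => intro h; exact absurd rfl h
  | one => intro _ _ v c h; simpa using h
  | prime p hp =>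
    intro _ h v c hv
    exact dilation_prime hv hp (by rw [hn]; exact h p hp dvd_rfl)
  | mul a b iha ihb =>
    intro h0 h v c hv
    have ha : a ≠ 0 := fun h' => h0 (by simp [h'])
    have hb : b ≠ 0 := fun h' => h0 (by simp [h'])
    have h1 := ihb hb (fun p hp hd => h p hp (Dvd.dvd.mul_left hd a)) v c hv
    have h2 := iha ha (fun p hp hd => h p hp (Dvd.dvd.mul_right hd b)) _ c h1
    simpa [mul_smul] using h2

/-- the dilation lemma for the multipliers `1 + n t`, `n` the size of the family. -/
theorem dilation_card {v : ι → G} {c : G → ℤ} (h : TilesFam v c) (t : ℕ) :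
    TilesFam (fun i => (1 + Fintype.card ι * t) • v i) c := by
  apply dilation (Fintype.card ι) rfl _ (by omega) _ v c h
  intro p hp hd h1
  have h2 : p ∣ 1 := by
    have h3 : p ∣ Fintype.card ι * t := Dvd.dvd.mul_right h1 t
    exact (Nat.dvd_add_left h3).1 hd
  exact hp.one_lt.ne' (Nat.dvd_one.1 h2)

end Vale.Agent.P043
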