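import Vale.Agent.Lib.P043.Weak

/-!
# P043: tiles whose balanced directions are linearly independent
-/

namespace Vale.Agent.P043

open Finset

variable {d : ℕ}

/-- dual vectors of a linearly independent family of functionals on `ℤ^d`. -/
lemma dual_vectors {J : ℕ} (l : Fin J → ((Fin d → ℤ) →+ ℤ)) (hind : LinearIndependent ℤ l) :
    ∃ (D : ℕ) (e : Fin J → (Fin d → ℤ)), 0 < D ∧
      ∀ i j, l i (e j) = if i = j then (D : ℤ) else 0 := by
  set φ : (Fin d → ℤ) →+ (Fin J → ℤ) := AddMonoidHom.pi l with hφ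
  obtain ⟨m, hm, hmem⟩ := exists_mul_mem φ.range
  have h1 : ∀ j : Fin J, m • (Pi.single j (1 : ℤ) : Fin J → ℤ) ∈ φ.range := by
    intro j
    apply hmem
    intro lam hlam
    have hsum : ∑ i, lam (Pi.single i 1) • l i = 0 := by
      apply AddMonoidHom.ext
      intro x
      have h2 := hlam (φ x) ⟨x, rfl⟩
      have h3 : φ x = ∑ i, (l i x) • (Pi.single i (1 : ℤ) : Fin J → ℤ) := by
        funext k
        simp [hφ, Finset.sum_apply, Pi.single_apply]
      rw [h3, map_sum] at h2
      simp only [map_zsmul, smul_eq_mul] at h2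
      simp only [AddMonoidHom.coe_finsetSum, Finset.sum_apply, AddMonoidHom.coe_smul,
        Pi.smul_apply, smul_eq_mul, AddMonoidHom.zero_apply]
      rw [← h2]
      apply Finset.sum_congr rfl
      intro i _
      ring
    exact Fintype.linearIndependent_iff.1 hind (fun i => lam (Pi.single i 1)) hsum j
  choose e he using h1
  refine ⟨m, e, hm, fun i j => ?_⟩
  have h2 : φ (e j) i = (m • (Pi.single j (1 : ℤ) : Fin J → ℤ)) i := by rw [he j]
  have h3 : φ (e j) i = l i (e j) := rfl
  rw [h3] at h2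
  rw [h2]
  by_cases hij : i = j
  · subst hij; simp
  · simp [hij]

/-- the group generated by the differences inside the classes of a colouring of `F`. -/
def classGroup (F : Finset (Fin d → ℤ)) (κ : F → F) : AddSubgroup (Fin d → ℤ) :=
  AddSubgroup.closure {g | ∃ i j : F, κ i = κ j ∧ g = (i : Fin d → ℤ) - j}

lemma balanced_of_class (F : Finset (Fin d → ℤ)) (κ : F → F) (z : F → ℂ)
    (hz1 : ∀ i, z i ^ Fintype.card F = 1)
    (hz2 : ∀ i, ∑ j ∈ univ.filter (fun j => κ j = κ i), z j = 0)
    (l : (Fin d → ℤ) →+ ℤ) (hl : ∀ x ∈ classGroup F κ, l x = 0) : Balanced F l := by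
  classical
  refine ⟨fun g => if h : g ∈ F then z ⟨g, h⟩ else 0, fun f hf => ?_, fun s => ?_⟩
  · simp only [hf, dif_pos]
    have := hz1 ⟨f, hf⟩
    rwa [Fintype.card_coe] at this
  · rw [Finset.sum_filter, ← Finset.sum_coe_sort F]
    have h2 := level_sum_zero κ z hz2 (fun i : F => l (i : Fin d → ℤ)) (by
      intro i j hij
      have : l ((i : Fin d → ℤ) - j) = 0 :=
        hl _ (AddSubgroup.subset_closure ⟨i, j, hij, rfl⟩)
      rw [map_sub] at this
      omega) s
    rw [Finset.sum_filter] at h2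
    refine Eq.trans ?_ h2
    apply Finset.sum_congr rfl
    intro i _
    simp

/-- for an admissible colouring, all functionals killing the class group are proportional to
one member of the independent family. -/
lemma exists_direction {J : ℕ} (j0 : Fin J)
    (l : Fin J → ((Fin d → ℤ) →+ ℤ))
    (D : ℕ) (e : Fin J → (Fin d → ℤ)) (hD : 0 < D)
    (he : ∀ i j, l i (e j) = if i = j then (D : ℤ) else 0)
    (Λ : AddSubgroup (Fin d → ℤ))
    (hF : ∀ f : (Fin d → ℤ) →+ ℤ, (∀ x ∈ Λ, f x = 0) → ∃ j, ∃ a b : ℤ, a ≠ 0 ∧ a • f = b • l j) :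
    ∃ j, ∀ w, l j w = 0 → ∀ f : (Fin d → ℤ) →+ ℤ, (∀ x ∈ Λ, f x = 0) → f w = 0 := by
  have hDz : (D : ℤ) ≠ 0 := by exact_mod_cast hD.ne'
  have ev : ∀ {f : (Fin d → ℤ) →+ ℤ} {a b : ℤ} {j : Fin J}, a • f = b • l j →
      ∀ x, a * f x = b * l j x := by
    intro f a b j h x
    have := congrArg (fun g : (Fin d → ℤ) →+ ℤ => g x) h
    simpa using this
  by_cases hU : ∀ f : (Fin d → ℤ) →+ ℤ, (∀ x ∈ Λ, f x = 0) → f = 0
  · exact ⟨j0, fun w _ f hf => by rw [hU f hf]; rfl⟩
  · obtain ⟨f0, hf0⟩ := not_forall.1 hU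
    obtain ⟨hf0Λ, hf0ne⟩ := Classical.not_imp.1 hf0
    obtain ⟨j1, a0, b0, ha0, hab0⟩ := hF f0 hf0Λ
    have hb0 : b0 ≠ 0 := by
      intro hb
      apply hf0ne
      apply AddMonoidHom.ext
      intro x
      have := ev hab0 x
      rw [hb, zero_mul] at this
      simpa using (mul_eq_zero.1 this).resolve_left ha0
    refine ⟨j1, fun w hw f hf => ?_⟩
    obtain ⟨j, a, b, ha, hab⟩ := hF f hf
    by_cases hj : j = j1
    · subst hj
      have := ev hab w
      rw [hw, mul_zero] at this
      exact (mul_eq_zero.1 this).resolve_left ha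
    · by_cases hb : b = 0
      · have := ev hab w
        rw [hb, zero_mul] at this
        exact (mul_eq_zero.1 this).resolve_left ha
      · exfalso
        obtain ⟨j2, a2, b2, ha2, hab2⟩ := hF (f + f0) (by
          intro x hx
          rw [AddMonoidHom.add_apply, hf x hx, hf0Λ x hx, add_zero])
        -- values on the dual vectors
        have e1 := ev hab (e j)
        have e2 := ev hab (e j1)
        have e3 := ev hab0 (e j)
        have e4 := ev hab0 (e j1)
        have e5 := ev hab2 (e j)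
        have e6 := ev hab2 (e j1)
        rw [he] at e1 e2 e3 e4 e5 e6
        rw [AddMonoidHom.add_apply] at e5 e6
        simp only [if_true] at e1 e4
        rw [if_neg hj] at e2
        rw [if_neg (Ne.symm hj)] at e3
        have g1 : f (e j) ≠ 0 := by
          intro h0
          rw [h0, mul_zero] at e1
          exact (mul_ne_zero hb hDz) e1.symm
        have g2 : f (e j1) = 0 := by
          rw [mul_zero] at e2
          exact (mul_eq_zero.1 e2).resolve_left ha
        have g3 : f0 (e j) = 0 := by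
          rw [mul_zero] at e3
          exact (mul_eq_zero.1 e3).resolve_left ha0
        have g4 : f0 (e j1) ≠ 0 := by
          intro h0
          rw [h0, mul_zero] at e4
          exact (mul_ne_zero hb0 hDz) e4.symm
        rw [g3, add_zero] at e5
        rw [g2, zero_add] at e6
        have k1 : j2 = j := by
          by_contra hne
          rw [if_neg hne, mul_zero] at e5
          exact (mul_ne_zero ha2 g1) e5
        have k2 : j2 = j1 := by
          by_contra hne
          rw [if_neg hne, mul_zero] at e6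
          exact (mul_ne_zero ha2 g4) e6
        exact hj (k1.symm.trans k2)

/-- **Independent balanced directions.** If every functional balanced on `F` is a rational
multiple of a member of a linearly independent family, and `F` tiles, then `F` has a periodic
tiling. -/
theorem independent_directions (F : Finset (Fin d → ℤ)) {J : ℕ}
    (l : Fin J → ((Fin d → ℤ) →+ ℤ)) (hind : LinearIndependent ℤ l)
    (hF : ∀ f : (Fin d → ℤ) →+ ℤ, Balanced F f → ∃ j, ∃ a b : ℤ, a ≠ 0 ∧ a • f = b • l j)
    (hT : ∃ A : Set (Fin d → ℤ), IsTiling A F) :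
    ∃ A : Set (Fin d → ℤ), IsTiling A F ∧ IsPeriodic A := by
  classical
  obtain ⟨A, hA⟩ := hT
  rcases Nat.eq_zero_or_pos J with hJ | hJ
  · subst hJ
    exact ⟨A, hA, forced_periodicity F
      (fun f hf => by obtain ⟨j, _⟩ := hF f hf; exact j.elim0) A hA⟩
  have j0 : Fin J := ⟨0, hJ⟩
  have hne : Nonempty (Fin J) := ⟨j0⟩
  obtain ⟨D, e, hD, he⟩ := dual_vectors l hind
  have hTF := (isTiling_iff A F).1 hA
  have ev : ∀ {f : (Fin d → ℤ) →+ ℤ} {a b : ℤ} {j : Fin J}, a • f = b • l j →
      ∀ x, a * f x = b * l j x := by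
    intro f a b j h x
    have := congrArg (fun g : (Fin d → ℤ) →+ ℤ => g x) h
    simpa using this
  choose mk hmk1 hmk2 using fun κ : F → F => exists_mul_mem (classGroup F κ)
  set m0 : ℕ := ∏ κ, mk κ with hm0
  have hm0pos : 0 < m0 := Finset.prod_pos fun κ _ => hmk1 κ
  have hnpos : 0 < Fintype.card F := by
    obtain ⟨i0⟩ := hTF.nonempty
    exact Fintype.card_pos_iff.2 ⟨i0⟩
  have hdir : ∀ (κ : F → F) (z : F → ℂ), (∀ i, z i ^ Fintype.card F = 1) →
      (∀ i, ∑ j ∈ univ.filter (fun j => κ j = κ i), z j = 0) →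
      ∃ j, ∀ w, l j w = 0 → m0 • w ∈ classGroup F κ := by
    intro κ z hz1 hz2
    obtain ⟨j, hj⟩ := exists_direction j0 l D e hD he (classGroup F κ)
      (fun f hf => hF f (balanced_of_class F κ z hz1 hz2 f hf))
    refine ⟨j, fun w hw => ?_⟩
    have h1 : mk κ • w ∈ classGroup F κ := hmk2 κ w (fun f hf => hj w hw f hf)
    obtain ⟨k, hk⟩ := Finset.dvd_prod_of_mem mk (Finset.mem_univ κ)
    rw [hm0, hk, mul_comm, mul_smul]
    exact (classGroup F κ).nsmul_mem h1 k
  set M2 : ℕ := Fintype.card F * m0 with hM2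
  have hM2pos : 0 < M2 := Nat.mul_pos hnpos hm0pos
  set E : Fin J → (Fin d → ℤ) := fun j => M2 • e j with hE
  have hEdef : ∀ j, E j = Fintype.card F • (m0 • e j) := by
    intro j
    simp only [hE, hM2, mul_smul]
  have hpair0 : ∀ j k, j ≠ k → dl (E j) (dl (E k) (ind A)) = 0 := by
    intro j k hjk
    rw [hEdef, hEdef]
    apply forced_pair hTF
    intro κ z hz1 hz2
    obtain ⟨i, hi⟩ := hdir κ z hz1 hz2
    by_cases hij : i = j
    · right
      exact hi _ (by rw [he, if_neg (by rw [hij]; exact hjk)])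
    · left
      exact hi _ (by rw [he, if_neg hij])
  have hpair : ∀ j k, j ≠ k → ∀ y,
      ind A (y + E j + E k) - ind A (y + E j) - ind A (y + E k) + ind A y = 0 := by
    intro j k hjk y
    have h1 := congrFun (hpair0 j k hjk) (y + E j + E k)
    simp only [dl, Pi.zero_apply] at h1
    have e1 : y + E j + E k - E j - E k = y := by abel
    have e2 : y + E j + E k - E j = y + E k := by abel
    have e3 : y + E j + E k - E k = y + E j := by abel
    rw [e1, e2, e3] at h1
    omega
  obtain ⟨M1, hM1, key⟩ := key_periods F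
  set S0 : Set (Fin d → ℤ) := {g | ∃ w, (∀ j, l j w = 0) ∧ g = M1 • w} with hS0def
  have hS0 : ∀ g ∈ S0, g ∈ periods A := by
    rintro _ ⟨w, hw, rfl⟩
    apply key A hA w
    intro f hf
    obtain ⟨j, a, b, ha, hab⟩ := hF f hf
    have := ev hab w
    rw [hw j, mul_zero] at this
    exact (mul_eq_zero.1 this).resolve_left ha
  obtain ⟨Aj, hsum, hside⟩ := exists_splitting S0 hS0 E hpair
  set M3 : ℕ := M1 * M2 * D with hM3
  have hM3pos : 0 < M3 := Nat.mul_pos (Nat.mul_pos hM1 hM2pos) hD
  have hker : ∀ j z, l j z = 0 → M3 • z ∈ sideGroup S0 E j := by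
    intro j z hz
    set k0 : Fin d → ℤ := D • z - ∑ k, (l k z) • e k with hk0
    have hk0ker : ∀ i, l i k0 = 0 := by
      intro i
      rw [hk0, map_sub, map_nsmul, map_sum]
      simp only [map_zsmul, he, smul_eq_mul, mul_ite, mul_zero]
      rw [Finset.sum_ite_eq]
      simp [mul_comm]
    have hdecomp : M3 • z = M2 • (M1 • k0) + ∑ k, ((M1 : ℤ) * l k z) • E k := by
      funext i
      simp only [hk0, hE, Pi.add_apply, Pi.smul_apply, Pi.sub_apply, Finset.sum_apply]
      simp only [nsmul_eq_mul, smul_eq_mul]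
      have h1 : ∑ k, (M1 : ℤ) * l k z * ((M2 : ℤ) * e k i)
          = (M2 : ℤ) * ((M1 : ℤ) * ∑ k, l k z * e k i) := by
        rw [Finset.mul_sum, Finset.mul_sum]
        apply Finset.sum_congr rfl
        intro k _
        ring
      rw [h1, hM3]
      push_cast
      ring
    rw [hdecomp]
    apply (sideGroup S0 E j).add_mem
    · apply (sideGroup S0 E j).nsmul_mem
      exact AddSubgroup.subset_closure (Or.inl ⟨k0, hk0ker, rfl⟩)
    · apply AddSubgroup.sum_mem
      intro k _
      by_cases hkj : k = j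
      · rw [hkj, hz, mul_zero, zero_smul]
        exact (sideGroup S0 E j).zero_mem
      · apply (sideGroup S0 E j).zsmul_mem
        exact AddSubgroup.subset_closure (Or.inr ⟨k, hkj, rfl⟩)
  have hlE : ∀ j, l j (E j) = ((M2 * D : ℕ) : ℤ) := by
    intro j
    rw [hE]
    simp only [map_nsmul, he, if_true]
    simp
  have hEu : ∀ j x, ∑ i : F, ind (Aj j) (x + E j - (i : Fin d → ℤ))
      = ∑ i : F, ind (Aj j) (x - (i : Fin d → ℤ)) := fun j x =>
    piece_cover_periodic hTF E Aj hsum
      (fun j k hk => hside j (AddSubgroup.subset_closure (Or.inr ⟨k, hk, rfl⟩))) j x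
  have step : ∀ j, ∃ (A' : Set (Fin d → ℤ)) (M : ℕ), 0 < M ∧
      (∀ x, ∑ i : F, ind A' (x - (i : Fin d → ℤ)) = ∑ i : F, ind (Aj j) (x - (i : Fin d → ℤ))) ∧
      ∀ w : Fin d → ℤ, M • w ∈ periods A' := by
    intro j
    have hpos : 0 < l j (E j) := by
      rw [hlE]
      exact_mod_cast Nat.mul_pos hM2pos hD
    obtain ⟨A', p, hp, heq, hpe, hk⟩ := pigeonhole_gen (v := fun i : F => (i : Fin d → ℤ))
      (A := Aj j) (fun x => ∑ i : F, ind (Aj j) (x - (i : Fin d → ℤ))) (fun x => rfl) (l j) (E j)
      hpos (hEu j) (by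
        intro N
        obtain ⟨T, hT⟩ := slab_reps (l j) hM3pos N
        refine ⟨T, fun y hy0 hyN => ?_⟩
        obtain ⟨t, ht, z, hz, hyt⟩ := hT y hy0 hyN
        refine ⟨t, ht, by rw [hyt, map_nsmul, hz, smul_zero], ?_⟩
        rw [hyt]
        exact hside j (hker j z hz))
    refine ⟨A', p * M3 * (M2 * D), Nat.mul_pos (Nat.mul_pos hp hM3pos) (Nat.mul_pos hM2pos hD),
      heq, fun w => ?_⟩
    set z : Fin d → ℤ := p • ((M2 * D) • w - l j w • E j) with hz
    have hz0 : l j z = 0 := by
      rw [hz, map_nsmul, map_sub, map_nsmul, map_zsmul, hlE]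
      simp [mul_comm]
    have h1 : M3 • z ∈ periods A' := by
      rw [mem_periods]
      apply hk
      · rw [map_nsmul, hz0, smul_zero]
      · exact hside j (hker j z hz0)
    have h2 : ((M3 : ℤ) * l j w) • (p • E j) ∈ periods A' := (periods A').zsmul_mem hpe _
    have h3 : (p * M3 * (M2 * D)) • w = M3 • z + ((M3 : ℤ) * l j w) • (p • E j) := by
      rw [hz]
      funext i
      simp only [Pi.add_apply, Pi.smul_apply, Pi.sub_apply]
      simp only [nsmul_eq_mul, smul_eq_mul]
      push_cast
      ring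
    rw [h3]
    exact (periods A').add_mem h1 h2
  choose A' M hMpos heq hper using step
  set Mstar : ℕ := ∏ j, M j with hMstar
  have hMstarpos : 0 < Mstar := Finset.prod_pos fun j _ => hMpos j
  have hperstar : ∀ j (w : Fin d → ℤ), Mstar • w ∈ periods (A' j) := by
    intro j w
    obtain ⟨k, hk⟩ := Finset.dvd_prod_of_mem M (Finset.mem_univ j)
    rw [hMstar, hk, mul_comm, mul_smul]
    exact (periods (A' j)).nsmul_mem (hper j w) k
  set c' : (Fin d → ℤ) → ℤ := fun x => ∑ j, ind (A' j) x with hc'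
  have htile : TilesFam (fun i : F => (i : Fin d → ℤ)) c' := by
    refine ⟨fun x => Finset.sum_nonneg fun j _ => ind_nonneg _ _, fun x => ?_⟩
    simp only [hc']
    rw [Finset.sum_comm]
    have h1 : ∑ j, ∑ i : F, ind (A' j) (x - (i : Fin d → ℤ))
        = ∑ j, ∑ i : F, ind (Aj j) (x - (i : Fin d → ℤ)) :=
      Finset.sum_congr rfl fun j _ => heq j x
    rw [h1, Finset.sum_comm, ← hTF.2 x]
    exact Finset.sum_congr rfl fun i _ => hsum _
  obtain ⟨i0⟩ := hTF.nonempty
  set A'' : Set (Fin d → ℤ) := {x | c' x = 1} with hA''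
  have hind' : ind A'' = c' := by
    funext x
    by_cases hx : c' x = 1
    · rw [hx, ind_eq_one]; exact hx
    · have h0 := htile.1 x
      have h1 := htile.le_one i0 x
      have h2 : c' x = 0 := by omega
      rw [h2, ind_eq_zero]; exact hx
  refine ⟨A'', (isTiling_iff A'' F).2 (by rw [hind']; exact htile), ?_⟩
  apply isPeriodic_of_mul hMstarpos
  intro w x
  have h1 : c' (x + Mstar • w) = c' x := by
    simp only [hc']
    apply Finset.sum_congr rfl
    intro j _
    rw [ind_eq_iff]
    exact hperstar j w x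
  change c' (x + Mstar • w) = 1 ↔ c' x = 1
  rw [h1]

end Vale.Agent.P043
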