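import Vale.Agent.Lib.P043.Defs
import Vale.Agent.Lib.P043.Annihilator

/-!
# P043: lattice lemmas and the bridge between sets and indicator functions
-/

namespace Vale.Agent.P043

open Finset

section bridge
variable {G : Type*} [AddCommGroup G]

open Classical in
/-- indicator function of a set, with integer values. -/
noncomputable def ind (A : Set G) : G → ℤ := fun x => if x ∈ A then 1 else 0

lemma ind_eq_one {A : Set G} {x : G} : ind A x = 1 ↔ x ∈ A := by
  unfold ind; split_ifs with h <;> simp [h]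

lemma ind_eq_zero {A : Set G} {x : G} : ind A x = 0 ↔ x ∉ A := by
  unfold ind; split_ifs with h <;> simp [h]

lemma ind_nonneg (A : Set G) (x : G) : 0 ≤ ind A x := by
  unfold ind; split_ifs <;> simp

lemma ind_eq_iff {A B : Set G} {x y : G} : ind A x = ind B y ↔ (x ∈ A ↔ y ∈ B) := by
  unfold ind; split_ifs with h1 h2 h2 <;> simp [h1, h2]

lemma isTiling_iff (A : Set G) (F : Finset G) :
    IsTiling A F ↔ TilesFam (fun f : F => (f : G)) (ind A) := by
  classical
  constructor
  · intro h
    refine ⟨ind_nonneg A, fun x => ?_⟩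
    obtain ⟨⟨a, f0⟩, ⟨ha, hf0, hsum⟩, huniq⟩ := h x
    simp only at ha hf0 hsum
    rw [Finset.sum_eq_single (⟨f0, hf0⟩ : F)]
    · rw [ind_eq_one]
      have : x - f0 = a := by rw [← hsum]; abel
      simpa [this] using ha
    · intro f _ hne
      rw [ind_eq_zero]
      intro hmem
      have := huniq (x - f, f) ⟨hmem, f.2, by simp⟩
      apply hne
      apply Subtype.ext
      exact congrArg Prod.snd this
    · intro hh; exact absurd (Finset.mem_univ _) hh
  · rintro ⟨-, h⟩ x
    have h1 := h x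
    have h2 : ∑ f : F, ind A (x - f) = ((univ.filter fun f : F => x - (f : G) ∈ A).card : ℤ) := by
      unfold ind
      rw [Finset.sum_boole]
    rw [h2] at h1
    have h3 : (univ.filter fun f : F => x - (f : G) ∈ A).card = 1 := by exact_mod_cast h1
    obtain ⟨f0, hf0⟩ := Finset.card_eq_one.1 h3
    have hm : f0 ∈ univ.filter fun f : F => x - (f : G) ∈ A := by rw [hf0]; simp
    refine ⟨(x - f0, f0), ⟨(Finset.mem_filter.1 hm).2, f0.2, by simp⟩, ?_⟩
    rintro ⟨a, f⟩ ⟨ha, hf, hsum⟩
    simp only at ha hf hsum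
    have hm' : (⟨f, hf⟩ : F) ∈ univ.filter fun f : F => x - (f : G) ∈ A := by
      refine Finset.mem_filter.2 ⟨Finset.mem_univ _, ?_⟩
      have : x - f = a := by rw [← hsum]; abel
      simpa [this] using ha
    rw [hf0, Finset.mem_singleton] at hm'
    have hff : f = (f0 : G) := congrArg Subtype.val hm'
    subst hff
    have : a = x - (f0 : G) := by rw [← hsum]; abel
    rw [this]

end bridge

section lattice
variable {d : ℕ}

/-- saturation with a uniform multiplier. -/
lemma exists_mul_mem (Λ : AddSubgroup (Fin d → ℤ)) : ∃ m : ℕ, 0 < m ∧ ∀ w : Fin d → ℤ,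
    (∀ l : (Fin d → ℤ) →+ ℤ, (∀ x ∈ Λ, l x = 0) → l w = 0) → m • w ∈ Λ := by
  set N : Submodule ℤ (Fin d → ℤ) := AddSubgroup.toIntSubmodule Λ with hN
  set T := Submodule.torsion ℤ ((Fin d → ℤ) ⧸ N) with hT
  obtain ⟨a, ha1, ha2⟩ := Submodule.annihilator_top_inter_nonZeroDivisors (R := ℤ) (M := T)
    (Submodule.torsion_isTorsion)
  have ha0 : a ≠ 0 := nonZeroDivisors.ne_zero ha2
  refine ⟨a.natAbs, Int.natAbs_pos.2 ha0, fun w hw => ?_⟩
  have h1 : T.mkQ (N.mkQ w) = 0 := by
    rw [← Module.forall_dual_apply_eq_zero_iff ℤ]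
    intro φ
    refine hw ((φ.comp (T.mkQ.comp N.mkQ)).toAddMonoidHom) (fun x hx => ?_)
    have : N.mkQ x = 0 := (Submodule.Quotient.mk_eq_zero _).2 hx
    simp [this]
  have h2 : N.mkQ w ∈ T := (Submodule.Quotient.mk_eq_zero _).1 h1
  have h3 : a • (⟨N.mkQ w, h2⟩ : T) = 0 := Submodule.mem_annihilator.1 ha1 _ trivial
  have h4 : a • N.mkQ w = 0 := congrArg Subtype.val h3
  rw [← map_smul] at h4
  have h5 : a • w ∈ N := (Submodule.Quotient.mk_eq_zero _).1 h4
  have h6 : a • w ∈ Λ := h5
  rcases Int.natAbs_eq a with h | h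
  · have : a.natAbs • w = a • w := by
      conv_rhs => rw [h]
      rw [natCast_zsmul]
    rw [this]; exact h6
  · have : a.natAbs • w = -(a • w) := by
      conv_rhs => rw [h]
      rw [neg_smul, natCast_zsmul, neg_neg]
    rw [this]; exact Λ.neg_mem h6

end lattice

end Vale.Agent.P043
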