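import Vale.Agent.Lib.P043.Pigeonhole

/-!
# P043: main theorems on tilings of `ℤ^d`
-/

namespace Vale.Agent.P043

open Finset

section general
variable {G : Type*} [AddCommGroup G]

/-- the group of periods of a set. -/
def periods (A : Set G) : AddSubgroup G where
  carrier := {h | ∀ x, x + h ∈ A ↔ x ∈ A}
  zero_mem' := by intro x; simp
  add_mem' := by
    intro a b ha hb x
    rw [← add_assoc, hb, ha]
  neg_mem' := by
    intro a ha x
    rw [← ha (x + -a)]; simp

lemma mem_periods {A : Set G} {h : G} : h ∈ periods A ↔ ∀ x, x + h ∈ A ↔ x ∈ A := Iff.rfl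

lemma level_sum_zero {ι : Type*} [Fintype ι] [DecidableEq ι] (κ : ι → ι) (z : ι → ℂ)
    (hz : ∀ i, ∑ j ∈ univ.filter (fun j => κ j = κ i), z j = 0) (lam : ι → ℤ)
    (hlam : ∀ i j, κ i = κ j → lam i = lam j) (s : ℤ) :
    ∑ i ∈ univ.filter (fun i => lam i = s), z i = 0 := by
  rw [← Finset.sum_fiberwise (univ.filter (fun i => lam i = s)) κ z]
  apply Finset.sum_eq_zero
  intro k _
  by_cases hne : ((univ.filter (fun i => lam i = s)).filter (fun i => κ i = k)).Nonempty
  · obtain ⟨i0, hi0⟩ := hne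
    have h1 := (mem_filter.1 hi0).2
    have h2 := (mem_filter.1 (mem_filter.1 hi0).1).2
    have : (univ.filter (fun i => lam i = s)).filter (fun i => κ i = k)
        = univ.filter (fun j => κ j = κ i0) := by
      ext j
      simp only [mem_filter, mem_univ, true_and]
      constructor
      · rintro ⟨_, hj⟩; rw [hj, h1]
      · intro hj
        exact ⟨by rw [hlam j i0 hj, h2], by rw [hj, h1]⟩
    rw [this, hz]
  · rw [not_nonempty_iff_eq_empty.1 hne, sum_empty]

/-- a balanced functional has no level set with exactly one point of `F`. -/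
lemma Balanced.paired {F : Finset G} {l : G →+ ℤ} (h : Balanced F l) :
    ∀ f ∈ F, ∃ f' ∈ F, f' ≠ f ∧ l f' = l f := by
  classical
  obtain ⟨z, hz1, hz2⟩ := h
  intro f hf
  by_contra hno
  have h1 : F.filter (fun g => l g = l f) = {f} := by
    ext g
    simp only [mem_filter, mem_singleton]
    constructor
    · rintro ⟨hg, hlg⟩
      by_contra hne
      exact hno ⟨g, hg, hne, hlg⟩
    · rintro rfl; exact ⟨hf, rfl⟩
  have h2 := hz2 (l f)
  rw [h1, sum_singleton] at h2
  have h3 := hz1 f hf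
  rw [h2, zero_pow (Finset.card_pos.2 ⟨f, hf⟩).ne'] at h3
  exact zero_ne_one h3

/-- for a tile of prime power size, the level sets of a balanced functional have sizes
divisible by the prime. -/
lemma Balanced.dvd_card {F : Finset G} {l : G →+ ℤ} (h : Balanced F l) {p k : ℕ} (hp : p.Prime)
    (hF : F.card = p ^ k) (s : ℤ) : p ∣ (F.filter (fun f => l f = s)).card := by
  obtain ⟨z, hz1, hz2⟩ := h
  apply dvd_card_of_vanishing (k := k) hp _ z _ (hz2 s)
  intro f hf
  rw [← hF]
  exact hz1 f (mem_filter.1 hf).1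

end general

section lattice
variable {d : ℕ}

/-- **Periods forced by the tile.** -/
theorem key_periods (F : Finset (Fin d → ℤ)) : ∃ m : ℕ, 0 < m ∧ ∀ A : Set (Fin d → ℤ),
    IsTiling A F → ∀ w : Fin d → ℤ, (∀ l : (Fin d → ℤ) →+ ℤ, Balanced F l → l w = 0) →
      ∀ x, x + m • w ∈ A ↔ x ∈ A := by
  classical
  set Lam : (F → F) → AddSubgroup (Fin d → ℤ) := fun κ =>
    AddSubgroup.closure {g | ∃ i j : F, κ i = κ j ∧ g = (i : Fin d → ℤ) - j} with hLam
  choose mk hmk1 hmk2 using fun κ => exists_mul_mem (Lam κ)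
  set m0 : ℕ := ∏ κ, mk κ with hm0
  by_cases hF : F.card = 0
  · refine ⟨1, one_pos, fun A hA => ?_⟩
    have hFe : F = ∅ := Finset.card_eq_zero.1 hF
    obtain ⟨p, ⟨_, hp, _⟩, _⟩ := hA 0
    rw [hFe] at hp
    simp at hp
  refine ⟨F.card * m0, Nat.mul_pos (Nat.pos_of_ne_zero hF) (Finset.prod_pos fun κ _ => hmk1 κ),
    fun A hA w hw x => ?_⟩
  have hT := (isTiling_iff A F).1 hA
  have key := forced_period hT (y := m0 • w) (by
    intro κ z hz1 hz2
    have h1 : mk κ • w ∈ Lam κ := by
      apply hmk2 κ w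
      intro l hl
      apply hw l
      refine ⟨fun g => if h : g ∈ F then z ⟨g, h⟩ else 0, fun f hf => ?_, fun s => ?_⟩
      · simp only [hf, dif_pos]
        have := hz1 ⟨f, hf⟩
        rwa [Fintype.card_coe] at this
      · rw [Finset.sum_filter, ← Finset.sum_coe_sort F]
        have h2 := level_sum_zero κ z hz2 (fun i : F => l (i : Fin d → ℤ)) (by
          intro i j hij
          have : l ((i : Fin d → ℤ) - j) = 0 :=
            hl _ (AddSubgroup.subset_closure ⟨i, j, hij, rfl⟩)
          rw [map_sub] at this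
          omega) s
        rw [Finset.sum_filter] at h2
        refine Eq.trans ?_ h2
        apply Finset.sum_congr rfl
        intro i _
        simp
    obtain ⟨k, hk⟩ := Finset.dvd_prod_of_mem mk (Finset.mem_univ κ)
    rw [hm0, hk, mul_comm, mul_smul]
    exact (Lam κ).nsmul_mem h1 k) (x + (F.card * m0) • w)
  rw [Fintype.card_coe, ← mul_smul, add_sub_cancel_right, ind_eq_iff] at key
  exact key.symm

/-- invariance under all multiples of `m` is periodicity. -/
lemma isPeriodic_of_mul {A : Set (Fin d → ℤ)} {m : ℕ} (hm : 0 < m)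
    (h : ∀ w x : Fin d → ℤ, x + m • w ∈ A ↔ x ∈ A) : IsPeriodic A := by
  have : NeZero m := ⟨hm.ne'⟩
  set φ : (Fin d → ℤ) →+ (Fin d → ZMod m) := (Int.castAddHom (ZMod m)).compLeft (Fin d) with hφ
  refine ⟨φ.ker, AddSubgroup.finiteIndex_ker φ, fun g hg x => ?_⟩
  have h1 : ∀ i, (m : ℤ) ∣ g i := by
    intro i
    have h2 : φ g i = 0 := by rw [AddMonoidHom.mem_ker.1 hg]; rfl
    have h3 : ((g i : ℤ) : ZMod m) = 0 := h2
    exact (ZMod.intCast_zmod_eq_zero_iff_dvd _ _).1 h3
  choose w hw using h1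
  have : g = m • w := by
    funext i
    rw [hw i]; simp
  rw [this]
  exact h w x

/-- **Forced periodicity.** -/
theorem forced_periodicity (F : Finset (Fin d → ℤ))
    (hF : ∀ l : (Fin d → ℤ) →+ ℤ, Balanced F l → l = 0) (A : Set (Fin d → ℤ))
    (hA : IsTiling A F) : IsPeriodic A := by
  obtain ⟨m, hm, key⟩ := key_periods F
  exact isPeriodic_of_mul hm (fun w x => key A hA w (fun l hl => by rw [hF l hl]; rfl) x)

/-- finitely many representatives of a slab modulo multiples of the kernel. -/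
lemma slab_reps (l : (Fin d → ℤ) →+ ℤ) {M : ℕ} (hM : 0 < M) (N : ℕ) :
    ∃ T : Finset (Fin d → ℤ), ∀ y, 0 ≤ l y → l y < (N : ℤ) →
      ∃ t ∈ T, ∃ z, l z = 0 ∧ y - t = M • z := by
  classical
  set box : Finset (Fin d → ℤ) := Fintype.piFinset (fun _ => Finset.Ico (0 : ℤ) M) with hbox
  set B : ℤ := ∑ r ∈ box, |l r| with hB
  have hBr : ∀ r ∈ box, |l r| ≤ B := fun r hr =>
    Finset.single_le_sum (f := fun r => |l r|) (fun _ _ => abs_nonneg _) hr
  set zs : ℤ → (Fin d → ℤ) := fun s => if h : ∃ z, l z = s then Classical.choose h else 0 with hzs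
  have hzs1 : ∀ z, l (zs (l z)) = l z := by
    intro z
    have h : ∃ z', l z' = l z := ⟨z, rfl⟩
    simp only [hzs, h, dif_pos]
    exact Classical.choose_spec h
  refine ⟨(box ×ˢ Finset.Icc (-(N + B)) (N + B)).image (fun p => p.1 + M • zs p.2), ?_⟩
  intro y hy0 hyN
  have hMz : (0 : ℤ) < M := by exact_mod_cast hM
  set r : Fin d → ℤ := fun i => y i % M with hr
  set z : Fin d → ℤ := fun i => y i / M with hz
  have hyrz : y = r + M • z := by
    funext i
    simp only [hr, hz, Pi.add_apply, Pi.smul_apply]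
    simp only [nsmul_eq_mul]
    exact (Int.emod_add_mul_ediv (y i) M).symm
  have hrbox : r ∈ box := by
    rw [hbox, Fintype.mem_piFinset]
    intro i
    exact Finset.mem_Ico.2 ⟨Int.emod_nonneg _ hMz.ne', Int.emod_lt_of_pos _ hMz⟩
  have hl : l y = l r + M * l z := by
    conv_lhs => rw [hyrz]
    rw [map_add, map_nsmul]; simp
  have hb := abs_le.1 (hBr r hrbox)
  have hlz : l z ∈ Finset.Icc (-(N + B)) (N + B) := by
    have hB0 : 0 ≤ B := le_trans (abs_nonneg _) (hBr r hrbox)
    have h1 : (M : ℤ) * l z ≤ N + B := by omega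
    have h2 : -(N + B) ≤ (M : ℤ) * l z := by omega
    rw [Finset.mem_Icc]
    constructor
    · by_contra hlt
      have hlt' : l z < -(N + B) := not_le.1 hlt
      have hneg : l z < 0 := by have : (0 : ℤ) ≤ N := by positivity
                                omega
      nlinarith
    · by_contra hlt
      have hlt' : N + B < l z := not_le.1 hlt
      have hpos : 0 < l z := by have : (0 : ℤ) ≤ N := by positivity
                                omega
      nlinarith
  refine ⟨r + M • zs (l z), Finset.mem_image.2 ⟨(r, l z), Finset.mem_product.2 ⟨hrbox, hlz⟩, rfl⟩,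
    z - zs (l z), by rw [map_sub, hzs1, sub_self], ?_⟩
  conv_lhs => rw [hyrz]
  rw [smul_sub]; abel

/-- **One balanced direction.** -/
theorem one_direction (F : Finset (Fin d → ℤ)) (l0 : (Fin d → ℤ) →+ ℤ)
    (hF : ∀ l : (Fin d → ℤ) →+ ℤ, Balanced F l → ∃ a b : ℤ, a ≠ 0 ∧ a • l = b • l0)
    (hT : ∃ A : Set (Fin d → ℤ), IsTiling A F) :
    ∃ A : Set (Fin d → ℤ), IsTiling A F ∧ IsPeriodic A := by
  obtain ⟨A, hA⟩ := hT
  obtain ⟨m, hm, key⟩ := key_periods F
  have per : ∀ z, l0 z = 0 → m • z ∈ periods A := by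
    intro z hz
    apply key A hA z
    intro l hl
    obtain ⟨a, b, ha, hab⟩ := hF l hl
    have h1 : a * l z = b * l0 z := by
      have := congrArg (fun f : (Fin d → ℤ) →+ ℤ => f z) hab
      simpa using this
    rw [hz, mul_zero] at h1
    exact (mul_eq_zero.1 h1).resolve_left ha
  by_cases h0 : ∃ e, l0 e ≠ 0
  · obtain ⟨e, he⟩ : ∃ e, 0 < l0 e := by
      obtain ⟨e, he⟩ := h0
      rcases lt_or_gt_of_ne he with h | h
      · exact ⟨-e, by rw [map_neg]; omega⟩
      · exact ⟨e, h⟩
    obtain ⟨A', p, hp, htile, hpe, hker⟩ := pigeonhole ((isTiling_iff A F).1 hA) l0 e he (by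
      intro N
      obtain ⟨T, hT⟩ := slab_reps l0 hm N
      refine ⟨T, fun y hy0 hyN => ?_⟩
      obtain ⟨t, ht, z, hz, hyt⟩ := hT y hy0 hyN
      refine ⟨t, ht, by rw [hyt, map_nsmul, hz, smul_zero], ?_⟩
      rw [hyt]
      exact per z hz)
    refine ⟨A', (isTiling_iff A' F).2 htile, ?_⟩
    set L : ℕ := (l0 e).toNat with hL
    have hLe : (L : ℤ) = l0 e := Int.toNat_of_nonneg he.le
    have hLpos : 0 < L := by
      have : (0 : ℤ) < L := by rw [hLe]; exact he
      exact_mod_cast this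
    apply isPeriodic_of_mul (m := p * m * L) (Nat.mul_pos (Nat.mul_pos hp hm) hLpos)
    intro w
    rw [← mem_periods]
    set z : Fin d → ℤ := p • (L • w - l0 w • e) with hz
    have hz0 : l0 z = 0 := by
      rw [hz, map_nsmul, map_sub, map_nsmul, map_zsmul, ← hLe]
      simp [mul_comm]
    have h1 : m • z ∈ periods A' := by
      rw [mem_periods]
      apply hker
      · rw [map_nsmul, hz0, smul_zero]
      · exact per z hz0
    have h2 : ((m : ℤ) * l0 w) • (p • e) ∈ periods A' :=
      (periods A').zsmul_mem hpe _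
    have h3 : (p * m * L) • w = m • z + ((m : ℤ) * l0 w) • (p • e) := by
      rw [hz]
      funext i
      simp only [Pi.add_apply, Pi.smul_apply, Pi.sub_apply]
      simp only [nsmul_eq_mul, smul_eq_mul]
      push_cast
      ring
    rw [h3]
    exact (periods A').add_mem h1 h2
  · have h0' : ∀ e, l0 e = 0 := by
      intro e
      by_contra hne
      exact h0 ⟨e, hne⟩
    exact ⟨A, hA, isPeriodic_of_mul hm (fun w => per w (h0' w))⟩

/-- **Aperiodic tiles have two independent balanced directions.** -/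
theorem two_directions (F : Finset (Fin d → ℤ)) (hT : ∃ A : Set (Fin d → ℤ), IsTiling A F)
    (hno : ∀ A : Set (Fin d → ℤ), IsTiling A F → ¬ IsPeriodic A) :
    ∃ l1 l2 : (Fin d → ℤ) →+ ℤ, Balanced F l1 ∧ Balanced F l2 ∧
      ∀ a b : ℤ, a • l1 + b • l2 = 0 → a = 0 ∧ b = 0 := by
  have step : ∀ l0 : (Fin d → ℤ) →+ ℤ, ∃ l, Balanced F l ∧ ∀ a b : ℤ, a ≠ 0 → a • l ≠ b • l0 := by
    intro l0
    by_contra hcon
    have hF : ∀ l : (Fin d → ℤ) →+ ℤ, Balanced F l → ∃ a b : ℤ, a ≠ 0 ∧ a • l = b • l0 := by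
      intro l hl
      by_contra hc
      apply hcon
      refine ⟨l, hl, fun a b ha hab => hc ⟨a, b, ha, hab⟩⟩
    obtain ⟨A, hA, hper⟩ := one_direction F l0 hF hT
    exact hno A hA hper
  obtain ⟨l1, hl1, h1⟩ := step 0
  obtain ⟨l2, hl2, h2⟩ := step l1
  refine ⟨l1, l2, hl1, hl2, fun a b hab => ?_⟩
  have hb : b = 0 := by
    by_contra hb
    apply h2 b (-a) hb
    rw [neg_smul]
    exact eq_neg_of_add_eq_zero_right hab
  subst hb
  refine ⟨?_, rfl⟩
  by_contra ha
  apply h1 a 0 ha
  simpa using hab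

end lattice

end Vale.Agent.P043
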