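import Vale.Agent.Lib.P043.Lattice

/-!
# P043: from a tiling with a corank-one group of periods to a periodic tiling
-/

namespace Vale.Agent.P043

open Finset

variable {G : Type*} [AddCommGroup G] {ι : Type*} [Fintype ι]

/-- the group of periods of an integer function. -/
def fperiods (u : G → ℤ) : AddSubgroup G where
  carrier := {h | ∀ x, u (x + h) = u x}
  zero_mem' := by intro x; simp
  add_mem' := by
    intro a b ha hb x
    rw [← add_assoc, hb, ha]
  neg_mem' := by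
    intro a ha x
    rw [← ha (x + -a)]; simp

lemma mem_fperiods {u : G → ℤ} {h : G} : h ∈ fperiods u ↔ ∀ x, u (x + h) = u x := Iff.rfl

lemma pigeonhole_aux {v : ι → G} {A : Set G} (u : G → ℤ)
    (h : ∀ x, ∑ i, ind A (x - v i) = u x)
    (l : G →+ ℤ) (e : G) (he : 0 < l e) (hu : ∀ x, u (x + e) = u x) (N0 : ℕ) (hN0 : ∀ i, |l (v i)| ≤ N0)
    (T : Finset G) (hT : ∀ y, 0 ≤ l y → l y < ((2 * N0 + 1 : ℕ) : ℤ) → ∃ t ∈ T, l (y - t) = 0 ∧
      ∀ x, x + (y - t) ∈ A ↔ x ∈ A)
    (k1 k2 : ℕ) (hk : k1 < k2)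
    (hst : ∀ t ∈ T, (t + ((2 * N0 + 1) * k1) • e ∈ A ↔ t + ((2 * N0 + 1) * k2) • e ∈ A)) :
    ∃ (A' : Set G) (p : ℕ), 0 < p ∧ (∀ x, ∑ i, ind A' (x - v i) = u x) ∧
      (∀ x, x + p • e ∈ A' ↔ x ∈ A') ∧
      (∀ w, l w = 0 → (∀ x, x + w ∈ A ↔ x ∈ A) → ∀ x, x + w ∈ A' ↔ x ∈ A') := by
  set N : ℕ := 2 * N0 + 1 with hN
  set p : ℕ := N * (k2 - k1) with hp
  set L : ℤ := l e with hL
  set a : ℤ := N * k1 * L with ha
  set P : ℤ := p * L with hP
  have hk' : 1 ≤ k2 - k1 := by omega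
  have hppos : 0 < p := Nat.mul_pos (by omega) (by omega)
  have hNp : N ≤ p := Nat.le_mul_of_pos_right N (by omega)
  have hPpos : 0 < P := mul_pos (by exact_mod_cast hppos) he
  have hNP : (N : ℤ) ≤ P := by
    have h1 : (N : ℤ) ≤ p := by exact_mod_cast hNp
    have h2 : (0 : ℤ) ≤ p := by positivity
    nlinarith
  have haP : a + P = N * k2 * L := by
    have : (p : ℤ) = N * ((k2 : ℤ) - k1) := by
      rw [hp]; push_cast [Nat.cast_sub hk.le]; ring
    rw [ha, hP, this]; ring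
  have hlpe : l (p • e) = P := by rw [map_nsmul, hP]; simp [hL]
  set θ : G → ℤ := fun y => (l y - a) / P with hθ
  set A' : Set G := {y | y - θ y • (p • e) ∈ A} with hA'
  have memA' : ∀ y, y ∈ A' ↔ y - θ y • (p • e) ∈ A := fun y => Iff.rfl
  have F1 : ∀ (y : G) (k : ℤ), θ (y + k • (p • e)) = θ y + k := by
    intro y k
    simp only [hθ]
    rw [map_add, map_zsmul, hlpe]
    have : l y + k • P - a = (l y - a) + k * P := by rw [smul_eq_mul]; ring
    rw [this, Int.add_mul_ediv_right _ _ hPpos.ne']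
  have F2 : ∀ (y : G) (k : ℤ), y + k • (p • e) ∈ A' ↔ y ∈ A' := by
    intro y k
    rw [memA', memA', F1]
    have : y + k • (p • e) - (θ y + k) • (p • e) = y - θ y • (p • e) := by
      rw [add_smul]; abel
    rw [this]
  have F3 : ∀ w, l w = 0 → (∀ x, x + w ∈ A ↔ x ∈ A) → ∀ x, x + w ∈ A' ↔ x ∈ A' := by
    intro w hw hper x
    rw [memA', memA']
    have h1 : θ (x + w) = θ x := by simp only [hθ]; rw [map_add, hw, add_zero]
    rw [h1]
    have : x + w - θ x • (p • e) = (x - θ x • (p • e)) + w := by abel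
    rw [this, hper]
  have F4 : ∀ y, a ≤ l y → l y < a + P + N → (y ∈ A' ↔ y ∈ A) := by
    intro y h1 h2
    rw [memA']
    by_cases h3 : l y < a + P
    · have : θ y = 0 := Int.ediv_eq_zero_of_lt (by omega) (by omega)
      rw [this, zero_smul, sub_zero]
    · have h3' : a + P ≤ l y := not_lt.1 h3
      have : θ y = 1 := by
        simp only [hθ]
        have e1 : l y - a = (l y - a - P) + 1 * P := by ring
        rw [e1, Int.add_mul_ediv_right _ _ hPpos.ne', Int.ediv_eq_zero_of_lt (by omega) (by omega)]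
        rfl
      rw [this, one_smul]
      have hl0 : l (y - (N * k2) • e) = l y - (a + P) := by
        rw [map_sub, map_nsmul, haP]; simp [hL]
      obtain ⟨t, ht, -, hper⟩ := hT (y - (N * k2) • e) (by rw [hl0]; omega) (by rw [hl0]; omega)
      have hsplit : (N * k2) • e = (N * k1) • e + p • e := by
        rw [← add_smul, hp, ← Nat.mul_add]
        congr 2
        omega
      have e1 : y = (t + (N * k2) • e) + (y - (N * k2) • e - t) := by abel
      have e2 : y - p • e = (t + (N * k1) • e) + (y - (N * k2) • e - t) := by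
        rw [hsplit]; abel
      rw [e2, hper]
      conv_rhs => rw [e1, hper]
      exact hst t ht
  refine ⟨A', p, hppos, fun x => ?_, fun x => ?_, F3⟩
  · set q : ℤ := (l x - a - N0) / P with hq
    set x' : G := x - q • (p • e) with hx'
    have hlx' : l x' = l x - q * P := by
      rw [hx', map_sub, map_zsmul, hlpe, smul_eq_mul]
    have hmod : l x - a - N0 - q * P = (l x - a - N0) % P := by
      rw [Int.emod_def, hq]; ring
    have hm1 : 0 ≤ (l x - a - N0) % P := Int.emod_nonneg _ hPpos.ne'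
    have hm2 : (l x - a - N0) % P < P := Int.emod_lt_of_pos _ hPpos
    have hux : u x' = u x := by
      have h1 : -(q • (p • e)) ∈ fperiods u :=
        (fperiods u).neg_mem ((fperiods u).zsmul_mem ((fperiods u).nsmul_mem hu p) q)
      have h2 := h1 x
      rwa [← sub_eq_add_neg] at h2
    rw [← hux, ← h x']
    apply Finset.sum_congr rfl
    intro i _
    rw [ind_eq_iff]
    have e1 : x - v i = (x' - v i) + q • (p • e) := by rw [hx']; abel
    rw [e1, F2]
    have hb := abs_le.1 (hN0 i)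
    apply F4
    · rw [map_sub, hlx']; omega
    · rw [map_sub, hlx', hN]; push_cast; omega
  · have := F2 x 1
    rwa [one_smul] at this

/-- If a tiling is invariant under enough translations inside the kernel of `l`, then there is
a tiling by the same family which keeps these periods and has a period transverse to the
kernel. -/
theorem pigeonhole_gen {v : ι → G} {A : Set G} (u : G → ℤ)
    (h : ∀ x, ∑ i, ind A (x - v i) = u x)
    (l : G →+ ℤ) (e : G) (he : 0 < l e) (hu : ∀ x, u (x + e) = u x)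
    (hT : ∀ N : ℕ, ∃ T : Finset G, ∀ y, 0 ≤ l y → l y < (N : ℤ) → ∃ t ∈ T, l (y - t) = 0 ∧
      ∀ x, x + (y - t) ∈ A ↔ x ∈ A) :
    ∃ (A' : Set G) (p : ℕ), 0 < p ∧ (∀ x, ∑ i, ind A' (x - v i) = u x) ∧
      (∀ x, x + p • e ∈ A' ↔ x ∈ A') ∧
      (∀ w, l w = 0 → (∀ x, x + w ∈ A ↔ x ∈ A) → ∀ x, x + w ∈ A' ↔ x ∈ A') := by
  set N0 : ℕ := ∑ i, (l (v i)).natAbs with hN0
  have hb : ∀ i, |l (v i)| ≤ N0 := by
    intro i
    have : (l (v i)).natAbs ≤ N0 :=
      Finset.single_le_sum (f := fun i => (l (v i)).natAbs) (fun _ _ => Nat.zero_le _)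
        (Finset.mem_univ i)
    rw [Int.abs_eq_natAbs]
    exact_mod_cast this
  obtain ⟨T, hT⟩ := hT (2 * N0 + 1)
  obtain ⟨k1, k2, hne, heq⟩ := Finite.exists_ne_map_eq_of_infinite
    (fun k : ℕ => fun t : T => ((t : G) + ((2 * N0 + 1) * k) • e ∈ A))
  have heq' : ∀ t ∈ T, (t + ((2 * N0 + 1) * k1) • e ∈ A ↔ t + ((2 * N0 + 1) * k2) • e ∈ A) := by
    intro t ht
    have := congrFun heq ⟨t, ht⟩
    simp only at this
    rw [this]
  rcases lt_or_gt_of_ne hne with hlt | hlt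
  · exact pigeonhole_aux u h l e he hu N0 hb T hT k1 k2 hlt heq'
  · exact pigeonhole_aux u h l e he hu N0 hb T hT k2 k1 hlt (fun t ht => (heq' t ht).symm)

theorem pigeonhole {v : ι → G} {A : Set G} (h : TilesFam v (ind A))
    (l : G →+ ℤ) (e : G) (he : 0 < l e)
    (hT : ∀ N : ℕ, ∃ T : Finset G, ∀ y, 0 ≤ l y → l y < (N : ℤ) → ∃ t ∈ T, l (y - t) = 0 ∧
      ∀ x, x + (y - t) ∈ A ↔ x ∈ A) :
    ∃ (A' : Set G) (p : ℕ), 0 < p ∧ TilesFam v (ind A') ∧ (∀ x, x + p • e ∈ A' ↔ x ∈ A') ∧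
      (∀ w, l w = 0 → (∀ x, x + w ∈ A ↔ x ∈ A) → ∀ x, x + w ∈ A' ↔ x ∈ A') := by
  obtain ⟨A', p, hp, h1, h2, h3⟩ := pigeonhole_gen (fun _ => 1) h.2 l e he (fun _ => rfl) hT
  exact ⟨A', p, hp, ⟨ind_nonneg A', h1⟩, h2, h3⟩

end Vale.Agent.P043
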