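import Vale.Agent.Lib.P043.Main

/-!
# P043: splitting a tiling with vanishing mixed differences into pieces with many periods
-/

namespace Vale.Agent.P043

open Finset

variable {G : Type*} [AddCommGroup G]

omit [AddCommGroup G] in
lemma ind_le_one (A : Set G) (x : G) : ind A x ≤ 1 := by
  unfold ind; split_ifs <;> simp

/-- the group generated by the common periods `S0` and the directions `E k`, `k ≠ j`. -/
def sideGroup {J : Type*} (S0 : Set G) (E : J → G) (j : J) : AddSubgroup G :=
  AddSubgroup.closure (S0 ∪ {g | ∃ k, k ≠ j ∧ g = E k})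

/-- **Splitting.** If all mixed second differences of the indicator of `A` in the directions
`E j`, `E k` (`j ≠ k`) vanish, then `A` is a disjoint union of sets `Aj j`, where `Aj j` is
invariant under the common periods and under all `E k` with `k ≠ j`. -/
theorem exists_splitting {J : Type*} [Fintype J] [Nonempty J] {A : Set G} (S0 : Set G)
    (hS0 : ∀ g ∈ S0, g ∈ periods A) (E : J → G)
    (hpair : ∀ j k, j ≠ k → ∀ y,
      ind A (y + E j + E k) - ind A (y + E j) - ind A (y + E k) + ind A y = 0) :
    ∃ Aj : J → Set G, (∀ y, ∑ j, ind (Aj j) y = ind A y) ∧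
      ∀ j, sideGroup S0 E j ≤ periods (Aj j) := by
  classical
  set Ltot : AddSubgroup G := AddSubgroup.closure (S0 ∪ Set.range E) with hLtot
  set Dfun : J → G → ℤ := fun j y => ind A (y + E j) - ind A y with hDfun
  have hcper : ∀ g ∈ S0, ∀ y, ind A (y + g) = ind A y := by
    intro g hg y
    rw [ind_eq_iff]
    exact hS0 g hg y
  have ha : ∀ j, sideGroup S0 E j ≤ fperiods (Dfun j) := by
    intro j
    unfold sideGroup
    rw [AddSubgroup.closure_le]
    rintro g (hg | ⟨k, hk, rfl⟩)
    · intro y
      simp only [hDfun]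
      have : y + g + E j = y + E j + g := by abel
      rw [this, hcper g hg, hcper g hg]
    · intro y
      simp only [hDfun]
      have h1 := hpair j k hk.symm y
      have : y + E k + E j = y + E j + E k := by abel
      rw [this]
      omega
  have hb : ∀ j k, j ≠ k → Ltot ≤ sideGroup S0 E j ⊔ sideGroup S0 E k := by
    intro j k hjk
    rw [hLtot, AddSubgroup.closure_le]
    rintro g (hg | ⟨i, rfl⟩)
    · exact (le_sup_left : sideGroup S0 E j ≤ _) (AddSubgroup.subset_closure (Or.inl hg))
    · by_cases hi : i = j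
      · subst hi
        exact (le_sup_right : sideGroup S0 E k ≤ _)
          (AddSubgroup.subset_closure (Or.inr ⟨i, hjk, rfl⟩))
      · exact (le_sup_left : sideGroup S0 E j ≤ _)
          (AddSubgroup.subset_closure (Or.inr ⟨i, hi, rfl⟩))
  set Bad : G → J → Prop := fun x j => ∃ h ∈ Ltot, Dfun j (x + h) ≠ 0 with hBad
  have huniq : ∀ x j k, Bad x j → Bad x k → j = k := by
    rintro x j k ⟨h, hh, hD⟩ ⟨h', hh', hD'⟩
    by_contra hjk
    have hmem : h' - h ∈ sideGroup S0 E j ⊔ sideGroup S0 E k :=
      hb j k hjk (Ltot.sub_mem hh' hh)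
    obtain ⟨a, ha', b, hb', hab⟩ := AddSubgroup.mem_sup.1 hmem
    set w := x + h + a with hw
    have h1 : Dfun j w = Dfun j (x + h) := ha j ha' (x + h)
    have h2 : Dfun k w = Dfun k (x + h') := by
      have h3 : w = x + h' + -b := by
        rw [hw]
        have : h' = h + (a + b) := by rw [hab]; abel
        rw [this]; abel
      rw [h3]
      exact ha k ((sideGroup S0 E k).neg_mem hb') (x + h')
    rw [← h1] at hD
    rw [← h2] at hD'
    simp only [hDfun] at hD hD'
    have h4 := hpair j k hjk w
    have b0 := ind_nonneg A w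
    have b1 := ind_le_one A w
    have b2 := ind_nonneg A (w + E j)
    have b3 := ind_le_one A (w + E j)
    have b4 := ind_nonneg A (w + E k)
    have b5 := ind_le_one A (w + E k)
    have b6 := ind_nonneg A (w + E j + E k)
    have b7 := ind_le_one A (w + E j + E k)
    omega
  set typ : G → J := fun x => Classical.epsilon (Bad x) with htyp
  have hBadinv : ∀ x h, h ∈ Ltot → Bad (x + h) = Bad x := by
    intro x h hh
    funext j
    apply propext
    constructor
    · rintro ⟨h', hh', hD⟩
      exact ⟨h + h', Ltot.add_mem hh hh', by rwa [← add_assoc]⟩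
    · rintro ⟨h', hh', hD⟩
      refine ⟨-h + h', Ltot.add_mem (Ltot.neg_mem hh) hh', ?_⟩
      have : x + h + (-h + h') = x + h' := by abel
      rwa [this]
  have T1 : ∀ x h, h ∈ Ltot → typ (x + h) = typ x := by
    intro x h hh
    simp only [htyp, hBadinv x h hh]
  have T2 : ∀ x k, k ≠ typ x → ind A (x + E k) = ind A x := by
    intro x k hk
    by_contra hne
    have hbk : Bad x k := ⟨0, Ltot.zero_mem, by
      simp only [hDfun, add_zero]
      intro h0
      exact hne (by omega)⟩
    have hbt : Bad x (typ x) := Classical.epsilon_spec (p := Bad x) ⟨k, hbk⟩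
    exact hk (huniq x k (typ x) hbk hbt)
  refine ⟨fun j => {x | x ∈ A ∧ typ x = j}, fun y => ?_, fun j => ?_⟩
  · by_cases hy : y ∈ A
    · rw [Finset.sum_eq_single (typ y)]
      · rw [ind_eq_iff]
        exact ⟨fun _ => hy, fun _ => ⟨hy, rfl⟩⟩
      · intro j _ hj
        rw [ind_eq_zero]
        rintro ⟨_, h2⟩
        exact hj h2.symm
      · intro h; exact absurd (Finset.mem_univ _) h
    · rw [ind_eq_zero.2 hy]
      apply Finset.sum_eq_zero
      intro j _
      rw [ind_eq_zero]
      rintro ⟨h1, _⟩
      exact hy h1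
  · unfold sideGroup
    rw [AddSubgroup.closure_le]
    rintro g (hg | ⟨k, hk, rfl⟩)
    · intro x
      have h1 : typ (x + g) = typ x := T1 x g (AddSubgroup.subset_closure (Or.inl hg))
      change (x + g ∈ A ∧ typ (x + g) = j) ↔ (x ∈ A ∧ typ x = j)
      rw [h1, hS0 g hg x]
    · intro x
      have h1 : typ (x + E k) = typ x := T1 x (E k) (AddSubgroup.subset_closure (Or.inr ⟨k, rfl⟩))
      change (x + E k ∈ A ∧ typ (x + E k) = j) ↔ (x ∈ A ∧ typ x = j)
      rw [h1]
      constructor
      · rintro ⟨h2, h3⟩
        have h4 := T2 x k (by rw [h3]; exact hk)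
        rw [ind_eq_iff] at h4
        exact ⟨h4.1 h2, h3⟩
      · rintro ⟨h2, h3⟩
        have h4 := T2 x k (by rw [h3]; exact hk)
        rw [ind_eq_iff] at h4
        exact ⟨h4.2 h2, h3⟩

/-- the covering functions of the pieces are invariant in the remaining direction as well. -/
theorem piece_cover_periodic {J : Type*} [Fintype J] [DecidableEq J] {ι : Type*} [Fintype ι]
    {v : ι → G} {A : Set G}
    (h : TilesFam v (ind A)) (E : J → G) (Aj : J → Set G)
    (hsum : ∀ y, ∑ j, ind (Aj j) y = ind A y)
    (hper : ∀ j k, k ≠ j → E k ∈ periods (Aj j)) (j : J) (x : G) :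
    ∑ i, ind (Aj j) (x + E j - v i) = ∑ i, ind (Aj j) (x - v i) := by
  have htot : ∀ y, ∑ k, ∑ i, ind (Aj k) (y - v i) = 1 := by
    intro y
    rw [Finset.sum_comm, ← h.2 y]
    apply Finset.sum_congr rfl
    intro i _
    exact hsum _
  have h1 := htot (x + E j)
  have h2 := htot x
  rw [← Finset.add_sum_erase _ _ (Finset.mem_univ j)] at h1 h2
  have h3 : ∑ k ∈ univ.erase j, ∑ i, ind (Aj k) (x + E j - v i)
      = ∑ k ∈ univ.erase j, ∑ i, ind (Aj k) (x - v i) := by
    apply Finset.sum_congr rfl
    intro k hk
    apply Finset.sum_congr rfl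
    intro i _
    rw [ind_eq_iff]
    have h4 := hper k j (Finset.mem_erase.1 hk).1.symm (x - v i)
    have : x + E j - v i = x - v i + E j := by abel
    rw [this]
    exact h4
  rw [h3] at h1
  omega

end Vale.Agent.P043
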